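import Crest.Agent.R165.D6.Geo

/-! # R165/D6 (owner helper58): instances of `Agree` -/

set_option autoImplicit false
noncomputable section
open Classical

namespace Crest.Agent.R165
open D5 D6

/-! ### task Agree-a -/

/-- **a window far from the features sees the plane.** `w`: `crit_near`, `sgn_cocycle`, `sgn_uv`, `eray_sq`; `vol`: `InitOK.crit`;
`shp`: `InitOK.shape/full` (`z ∈ B → z ∈ bSites B`, `IsShape` is translation invariant); `cov`: `gloc_far` on both sides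
(`(gPlane ..).Fz = ∅`, `fz_far`, `gPl_shift`); `bulk`: `l_lt`/`l_succ`, `ConsOK.big` (`20 T ≤ L`); `gauge`: `sgn_cocycle`, `sgn_empty`. -/
theorem D6.agree_gen {R : ℕ} {k : Cons} (hk : ConsOK R k) {c : ℝ × ℝ} {𝔤 : Geom} (hI : InitOK k.p R c 𝔤) (ht : 𝔤.Typ)
    (Γ h : ℕ → ℝ) (jN : ℕ∞) (m : ℕ) (y : ℕ → Edge) (O : ℕ → Cfg → ℝ) (oS : ℕ → Finset Site) (a : Site) (ρ : ℕ → Option ℕ)
    {x₀ : Site} {r j : ℕ} (hx : |𝔤.w (x₀, 0)| = tc) (hf : 𝔤.Far (2 * r + 5 * k.p.l j) x₀)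
    (hinj : ∀ k₁ k₂ k', ρ k₁ = some k' → ρ k₂ = some k' → k₁ = k₂)
    (hobs : ∀ i i', ρ i = some i' → i < 𝔤.m ∧ i' < m ∧ y i' = trE a (𝔤.y i) ∧ oS i' = (𝔤.oS i).image (· + a) ∧
      (∀ n, O i' n = 𝔤.O i (n ∘ trE a)) ∧ ∀ l < j, (((l : ℕ∞) < jN) ↔ (l : ℕ∞) < 𝔤.jN))
    (hobs' : ∀ i' < m, ∃ i, ρ i = some i') :
    Agree k.p 𝔤 (gPlane R Γ h jN m y O oS) a (sgn 𝔤.S x₀) ρ (box x₀ r) j := by
  have hl := l_pos hk.pok j
  have hl0 : k.p.l0 ≤ k.p.l j := by simpa [Par.l] using l_mono hk.pok (Nat.zero_le j)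
  have hR := hk.l0.2
  have hB : ∀ b ∈ 𝔤.Bb, 2 * r + 5 * k.p.l j ≤ supd ((x₀, 0) : Edge).1 b := fun b hb => hf b (Or.inl hb)
  have hS : ∀ v ∈ 𝔤.S, v ∉ box x₀ r := fun v hv h => by
    have h1 := hf v (Or.inr hv)
    have h2 := mem_box.1 h
    rw [supd_comm] at h2
    omega
  have hfar : ∀ x ∈ box x₀ r, ∀ b d, 2 * r + 5 * k.p.l j ≤ supd x₀ b + d → 5 * k.p.l j ≤ supd x b + d := fun x hx b d h => by
    have h1 := mem_box.1 hx
    have h2 := supd_triangle x₀ x b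
    rw [supd_comm] at h1
    omega
  have hw : ∀ e : Edge, e.1 ∈ box x₀ r → 𝔤.w e = tc * eray 𝔤.S e := fun e he => crit_near ht hx hB (by
    have h1 := mem_box.1 he
    show supd e.1 x₀ + 6 ≤ _
    omega)
  have hw0 : ∀ x ∈ box x₀ r, |𝔤.w (x, 0)| = tc := fun x hx => by
    rw [hw (x, 0) hx, eray_0, mul_one, abs_of_pos tc_pos.1]
  have hσ : ∀ x ∈ box x₀ r, ∀ x' ∈ box x₀ r, sgn 𝔤.S x₀ x * sgn 𝔤.S x₀ x' * sgn 𝔤.S x x' = 1 := fun x hx x' hx' => by
    rw [sgn_cocycle hS (self_mem_box x₀ r) hx hx', (sgn_isSign 𝔤.S x).mul_self]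
  refine ⟨sgn_isSign _ _, fun e h0 h1 => ?_, fun x hx => ?_, fun B hBW => ?_, hinj, hobs, fun i' hi' _ => hobs' i' hi',
    fun i hi u v hu hv => ?_, fun i hi x hx => ?_, fun i hi x hx _ x' hx' _ => ?_⟩
  · rw [hw e h0, ← sgn_uv, mul_left_comm, hσ _ h0 _ h1, mul_one]
    rfl
  · exact iff_of_true trivial (hI.crit (x, 0) (hw0 x hx)).1
  · refine ((D4.lsym_shift a).isShape R B).trans ⟨fun h => hI.full B h fun z hz => ?_, fun h => (hI.shape B h).1⟩
    have hz' := hBW (D4.subset_bSites B hz)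
    refine ⟨hw0 z hz', fun b hb => ?_⟩
    have := hfar z hz' b 0 (hB b hb)
    omega
  · have hi' := l_mono hk.pok hi
    rw [Geom.gle, Geom.gle, gloc_far hk.pok 𝔤 i u v fun b hb => ?_, gloc_far hk.pok _ i _ _ fun b hb => ?_]
    · rw [show (gPlane R Γ h jN m y O oS).S = ∅ from rfl, sgn_empty, gPl_shift, add_sub_add_right_eq_sub]
      linear_combination (-chi k.p i (u.1 - v.1) * gPl u v) * hσ _ hu _ hv
    · rcases hb with (hb | hb) | hb
      · exact hb.elim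
      · exact (hb (abs_of_pos tc_pos.1)).elim
      · exact absurd hb (Finset.notMem_empty b)
    · rcases hb with hb | hb
      · have := hfar _ hu b 5 (fz_far ht hx hB hb)
        omega
      · have := hfar _ hu b 0 (hf b (Or.inr hb))
        omega
  · refine iff_of_true ⟨fun b hb => ?_, abs_of_pos tc_pos.1⟩ ⟨fun b hb => ?_, hw0 x hx⟩
    · rcases hb with hb | hb
      · exact hb.elim
      · exact absurd hb (Finset.notMem_empty b)
    · have h1 := hfar _ hx b 0 (hf b hb)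
      have h2 := l_mono hk.pok (show i + 1 ≤ j from hi)
      have h3 : k.p.T * k.p.l i ≤ k.p.L * k.p.l i := Nat.mul_le_mul_right _ (by have := hk.big.1; omega)
      rw [l_succ] at h2
      omega
  · rw [hσ x hx x' hx']
    exact sgn_empty _ _

/-- `agree_gen` -/
theorem agree_plane {R : ℕ} {k : Cons} (hk : ConsOK R k) {c : ℝ × ℝ} {𝔤 : Geom} (hI : InitOK k.p R c 𝔤) (ht : 𝔤.Typ)
    (Γ : ℕ → ℝ) {x₀ : Site} {r j : ℕ} (hx : |𝔤.w (x₀, 0)| = tc) (hf : 𝔤.Far (2 * r + 5 * k.p.l j) x₀) :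
    Agree k.p 𝔤 (gPl0 R Γ) 0 (sgn 𝔤.S x₀) (fun _ => none) (box x₀ r) j := by
  exact D6.agree_gen hk hI ht Γ _ _ _ _ _ _ 0 _ hx hf (fun _ _ _ h => by cases h) (fun _ _ h => by cases h)
    fun _ h => absurd h (Nat.not_lt_zero _)

/-- `agree_gen`, `InitOK.ener`, `gPl_shift` -/
theorem agree_en {R : ℕ} {k : Cons} (hk : ConsOK R k) {c : ℝ × ℝ} {𝔤 : Geom} (hI : InitOK k.p R c 𝔤) (ht : 𝔤.Typ)
    (Γ h : ℕ → ℝ) {i : ℕ} (hi : i < 𝔤.m) {r j : ℕ} (h0 : 0 < 𝔤.jN) (hj : (j : ℕ∞) ≤ 𝔤.jN)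
    (hx : |𝔤.w ((𝔤.y i).1, 0)| = tc) (hf : 𝔤.Far (2 * r + 5 * k.p.l j) (𝔤.y i).1) :
    Agree k.p 𝔤 (gEn R Γ h c ((0, 0), (𝔤.y i).2)) (-(𝔤.y i).1) (sgn 𝔤.S (𝔤.y i).1)
      (fun i' => if i' = i then some 0 else none) (box (𝔤.y i).1 r) j := by
  obtain ⟨h1, h2, -⟩ := hI.ener h0 i hi
  refine D6.agree_gen hk hI ht Γ h _ _ _ _ _ _ _ hx hf (fun k₁ k₂ k' e₁ e₂ => ?_) (fun i₁ i' e => ?_)
    fun i' hi' => ⟨i, by rw [if_pos rfl, Nat.lt_one_iff.1 hi']⟩
  · split_ifs at e₁ e₂ with a₁ a₂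
    exact a₁.trans a₂.symm
  · split_ifs at e with a₁
    obtain rfl := Option.some.inj e
    subst a₁
    have e0 : trE (-(𝔤.y i₁).1) (𝔤.y i₁) = ((0, 0), (𝔤.y i₁).2) := by
      rw [trE, add_neg_cancel]
      rfl
    refine ⟨hi, one_pos, e0.symm, ?_, fun n => ?_, fun l hl => iff_of_true (ENat.natCast_lt_top l) ?_⟩
    · rw [h2, enS, enS, Finset.image_insert, Finset.image_singleton, add_neg_cancel, add_right_comm, add_neg_cancel]
      rfl
    · rw [h1, ← e0]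
      simp only [enO, Function.comp_apply]
      rw [← gPl_shift (-(𝔤.y i₁).1) (he0 (𝔤.y i₁)) (he1 (𝔤.y i₁))]
      simp only [he0, he1, trE, add_right_comm]
    · exact lt_of_lt_of_le (by exact_mod_cast hl) hj

/-- `agree_gen`, `sgn_empty` -/
theorem agree_obs {R : ℕ} {k : Cons} (hk : ConsOK R k) {c : ℝ × ℝ} {𝔤 : Geom} (hI : InitOK k.p R c 𝔤) (ht : 𝔤.Typ)
    (Γ h : ℕ → ℝ) (hS : 𝔤.S = ∅) (hm : 𝔤.m = 1) (hN : 𝔤.jN = 0) {x₀ : Site} {r j : ℕ}
    (hx : |𝔤.w (x₀, 0)| = tc) (hf : 𝔤.Far (2 * r + 5 * k.p.l j) x₀) :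
    Agree k.p 𝔤 (gPlane R Γ h 0 1 𝔤.y 𝔤.O 𝔤.oS) 0 (fun _ => 1) (fun i' => if i' = 0 then some 0 else none) (box x₀ r) j := by
  have e0 : (fun _ => 1) = sgn 𝔤.S x₀ := funext fun x => by rw [hS, sgn_empty]
  rw [e0]
  have ht0 : trE 0 = id := funext fun e => by simp [trE]
  refine D6.agree_gen hk hI ht Γ h _ _ _ _ _ _ _ hx hf (fun k₁ k₂ k' e₁ e₂ => ?_) (fun i₁ i' e => ?_)
    fun i' hi' => ⟨0, by rw [if_pos rfl, Nat.lt_one_iff.1 hi']⟩
  · split_ifs at e₁ e₂ with a₁ a₂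
    exact a₁.trans a₂.symm
  · split_ifs at e with a₁
    obtain rfl := Option.some.inj e
    subst a₁
    refine ⟨by omega, one_pos, by rw [ht0, id], by simp, fun n => by rw [ht0, Function.comp_id], fun l _ => by rw [hN]⟩

/-! ### task Agree-b -/

theorem D6.agb_T {R : ℕ} {k : Cons} (hk : ConsOK R k) {i j : ℕ} (h : i < j) : k.p.T * k.p.l i ≤ k.p.l j := by
  have h1 := l_mono hk.pok (Nat.succ_le_of_lt h)
  rw [Nat.succ_eq_add_one, l_succ] at h1
  exact (Nat.mul_le_mul_right _ (by have := hk.big.1; omega)).trans h1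

theorem D6.agb_out {S : Finset Site} {x₀ : Site} {r n : ℕ} (hn : 0 < n) (hf : ∀ v ∈ S, 2 * r + n ≤ supd x₀ v) :
    ∀ v ∈ S, v ∉ box x₀ r := fun v hv h => by
  have h1 := hf v hv
  rw [mem_box, supd_comm] at h
  omega

theorem D6.agb_far {x₀ x b : Site} {r n : ℕ} (hx : x ∈ box x₀ r) (h : 2 * r + n ≤ supd x₀ b) : r + n ≤ supd x b := by
  have h1 := supd_triangle x₀ x b
  rw [mem_box, supd_comm] at hx
  omega

theorem D6.agb_mem {B : Finset Site} {z : Site} (hz : z ∈ B) : z ∈ bSites B := by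
  refine Finset.mem_biUnion.2 ⟨z, ?_, Finset.mem_insert_self _ _⟩
  rw [bbox, dif_pos ⟨z, hz⟩, Finset.mem_product, Finset.mem_Icc, Finset.mem_Icc]
  exact ⟨⟨Finset.inf'_le _ hz, Finset.le_sup' _ hz⟩, Finset.inf'_le _ hz, Finset.le_sup' _ hz⟩

theorem D6.agb_shape {R : ℕ} {B : Finset Site} (a : Site) : IsShape R (B.image (· + a)) ↔ IsShape R B := by
  simp only [IsShape, Finset.image_nonempty, Finset.forall_mem_image, supd_add]

/-- `Fz` is the same (`eray_0`); all spin terms of `gloc` vanish on both sides (`eta_props`); `sgn_cocycle`, `sgn_uv` -/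
theorem agree_noSpin {R : ℕ} {k : Cons} (hk : ConsOK R k) {𝔤 : Geom} {w₀ : Edge → ℝ} (hw : ∀ e, 𝔤.w e = w₀ e * eray 𝔤.S e)
    {x₀ : Site} {r j : ℕ} (hf : ∀ v ∈ 𝔤.S, 2 * r + 5 * k.p.l j ≤ supd x₀ v) :
    Agree k.p 𝔤 { 𝔤.noSpin w₀ with m := 0 } 0 (sgn 𝔤.S x₀) (fun _ => none) (box x₀ r) j := by
  have hl := l_pos hk.pok j
  have hS := agb_out (by omega) hf
  have hc : ∀ {y z : Site}, y ∈ box x₀ r → z ∈ box x₀ r → sgn 𝔤.S x₀ y * sgn 𝔤.S x₀ z = sgn 𝔤.S y z :=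
    fun hy hz => sgn_cocycle hS (self_mem_box _ _) hy hz
  have hw0 : ∀ b, w₀ (b, 0) = 𝔤.w (b, 0) := fun b => by rw [hw, eray_0, mul_one]
  refine ⟨sgn_isSign _ _, fun e h1 h2 => ?_, fun x _ => by rw [add_zero]; rfl, fun B _ => by simp [Geom.noSpin],
    fun _ _ _ h => by simp at h, fun _ _ h => by simp at h, fun _ h => by simp at h, fun i hi u v hu hv => ?_,
    fun i hi x hx => ?_, fun i _ x hx _ x' hx' _ => ?_⟩
  · rw [hc h1 h2, sgn_uv, hw, mul_left_comm, ← sq, eray_sq, mul_one]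
    simp [trE, Geom.noSpin]
  · have hli := l_mono hk.pok hi
    have h1 : ∀ b ∈ 𝔤.S, 4 * k.p.l i ≤ supd u.1 b := fun b hb => by
      have := agb_far hu (hf b hb)
      omega
    have h2 : eta k.p i ↑𝔤.S u.1 = 0 := (eta_props hk.pok i _ _).2.2.1 h1
    have h3 : ∀ b ∈ 𝔤.S, eta k.p i {b} u.1 = 0 := fun b hb => (eta_props hk.pok i _ _).2.2.1 fun b' hb' => by
      rw [Set.mem_singleton_iff.1 hb']; exact h1 b hb
    have h4 : eta k.p i ↑(∅ : Finset Site) u.1 = 0 := (eta_props hk.pok i _ _).2.2.1 fun b hb => by simp at hb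
    have h5 : Geom.Fz { 𝔤.noSpin w₀ with m := 0 } = 𝔤.Fz := by
      ext b
      simp only [Geom.Fz, Geom.noSpin, hw0]
    have h6 := (sgn_isSign 𝔤.S u.1).mul_self v.1
    rw [hc hu hv]
    simp only [Geom.gle, Geom.gloc, add_zero, h5]
    simp only [Geom.noSpin, sgn_empty, Finset.sum_empty, h2, h4, zero_mul, ite_self, add_zero, one_mul]
    rw [Finset.sum_eq_zero fun b hb => by rw [h3 b hb, zero_mul, zero_mul], ite_self, add_zero]
    linear_combination (-(chi k.p i (u.1 - v.1) * (gPl u v + eta k.p i 𝔤.Fz u.1 * eta k.p i 𝔤.Fz v.1 * (𝔤.gB u v - gPl u v)))) * h6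
  · have hT := agb_T hk hi
    simp only [Geom.Bulk, Geom.Far, Geom.noSpin, add_zero, hw0, Finset.notMem_empty, or_false]
    refine and_congr_left' ⟨fun h b hb => hb.elim (h b) fun hb => ?_, fun h b hb => h b (Or.inl hb)⟩
    have := agb_far hx (hf b hb)
    omega
  · rw [hc hx hx', (sgn_isSign 𝔤.S x).mul_self]
    exact sgn_empty _ _

/-- `crit_near`, `sgn_erase`, `sgn_shift`, `sgn_uv` (also gives `eray` in terms of `sgn`), `sgn_cocycle` for `S.erase v`; in `gloc` only the term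
of `v` survives (`Finset.sum_eq_single`, `eta_props`: vanishing and translation invariance), `gPl_shift` -/
theorem agree_branch {R : ℕ} {k : Cons} (hk : ConsOK R k) {c : ℝ × ℝ} {𝔤 : Geom} (hI : InitOK k.p R c 𝔤) (ht : 𝔤.Typ)
    (Γ : ℕ → ℝ) {v : Site} (hv : v ∈ 𝔤.S) {r j : ℕ} (hj : (j : ℕ∞) < 𝔤.jN) (hx : |𝔤.w (v, 0)| = tc)
    (hf : ∀ b, (b ∈ 𝔤.Bb ∨ b ∈ 𝔤.S.erase v) → 2 * r + 5 * k.p.l j ≤ supd v b) :
    Agree k.p 𝔤 (gBr0 R Γ) (-v) (sgn (𝔤.S.erase v) v) (fun _ => none) (box v r) j := by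
  have hl := l_pos hk.pok j
  have hS := agb_out (S := 𝔤.S.erase v) (by omega) fun b hb => hf b (Or.inr hb)
  have hc : ∀ {y z : Site}, y ∈ box v r → z ∈ box v r →
      sgn (𝔤.S.erase v) v y * sgn (𝔤.S.erase v) v z = sgn (𝔤.S.erase v) y z :=
    fun hy hz => sgn_cocycle hS (self_mem_box _ _) hy hz
  have hcr : ∀ e : Edge, e.1 ∈ box v r → 𝔤.w e = tc * eray 𝔤.S e := fun e he =>
    crit_near ht hx (fun b hb => hf b (Or.inl hb)) (by
      rw [mem_box] at he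
      show supd e.1 v + 6 ≤ _
      omega)
  have hc0 : ∀ x ∈ box v r, |𝔤.w (x, 0)| = tc := fun x hx => by
    rw [hcr (x, 0) hx, eray_0, mul_one, abs_of_pos tc_pos.1]
  have hsh : ∀ x y : Site, sgn {0} (x + -v) (y + -v) = sgn {v} x y := fun x y => by
    rw [← sgn_shift v (-v), add_neg_cancel]
  have hw' : ∀ b, |wOf Set.univ {0} (b, 0)| = tc := fun b => by
    rw [wOf, if_pos (Set.mem_univ _), eray_0, mul_one, abs_of_pos tc_pos.1]
  refine ⟨sgn_isSign _ _, fun e h1 h2 => ?_, fun x hx => ?_, fun B hB => ?_,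
    fun _ _ _ h => by simp at h, fun _ _ h => by simp at h, fun _ h => by simp [gBr0, gPl0, gPlane] at h, fun i hi u u' hu hu' => ?_,
    fun i hi x hx => ?_, fun i _ x hx _ x' hx' _ => ?_⟩
  · have h3 := (sgn_isSign (𝔤.S.erase v) e.1).mul_self (e.1 + uv e.2)
    rw [hc h1 h2, hcr e h1, ← sgn_uv, sgn_erase hv, ← hsh]
    show wOf Set.univ {0} (trE (-v) e) = _
    rw [wOf, if_pos (Set.mem_univ _), ← sgn_uv]
    simp only [trE, add_right_comm e.1 (-v)]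
    linear_combination (-(tc * sgn {0} (e.1 + -v) (e.1 + uv e.2 + -v))) * h3
  · exact iff_of_true (Set.mem_univ _) (hI.crit (x, 0) (hc0 x hx)).1
  · refine (agb_shape (-v)).trans ⟨fun h => hI.full B h fun z hz => ⟨hc0 z (hB (agb_mem hz)), fun b hb => ?_⟩,
      fun h => (hI.shape B h).1⟩
    have h1 := agb_far (hB (agb_mem hz)) (hf b (Or.inl hb))
    have h2 := (D3.lam_eq hk.pok j).2.2.2.2.2
    have h3 := hk.l0.2
    omega
  · have hli := l_mono hk.pok hi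
    have h1 : eta k.p i 𝔤.Fz u.1 = 0 := (eta_props hk.pok i _ _).2.2.1 fun b hb => by
      have h1 := fz_far ht hx (fun b hb => hf b (Or.inl hb)) hb
      have h2 := supd_triangle v u.1 b
      rw [mem_box, supd_comm] at hu
      dsimp only at h1
      omega
    have h2 : eta k.p i (gBr0 R Γ).Fz (u.1 + -v) = 0 := (eta_props hk.pok i _ _).2.2.1 fun b hb =>
      (hb.elim (fun h => h) fun h => h (hw' b)).elim
    have h3 : ∀ b ∈ 𝔤.S, b ≠ v → eta k.p i {b} u.1 = 0 := fun b hb hbv => (eta_props hk.pok i _ _).2.2.1 fun b' hb' => by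
      rw [Set.mem_singleton_iff.1 hb']
      have := agb_far hu (hf b (Or.inr (Finset.mem_erase.2 ⟨hbv, hb⟩)))
      omega
    have h4 : ∀ x, eta k.p i {0} (x + -v) = eta k.p i {v} x := fun x => by
      rw [← (eta_props hk.pok i {v} x).2.2.2 (-v), Set.image_singleton, add_neg_cancel]
    have h5 : (i : ℕ∞) < 𝔤.jN := lt_of_le_of_lt (by exact_mod_cast hi) hj
    have h6 := (sgn_isSign (𝔤.S.erase v) u.1).mul_self u'.1
    rw [hc hu hu']
    simp only [Geom.gle, Geom.gloc, h1, h2, zero_mul, add_zero, if_pos h5]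
    rw [Finset.sum_eq_single v (fun b hb hbv => by rw [h3 b hb hbv, zero_mul, zero_mul]) fun h => (h hv).elim, sgn_erase hv]
    simp only [gBr0, gPl0, gPlane, ENat.coe_lt_top, if_true, Finset.sum_singleton, h4, hsh, gPl_shift, Finset.erase_singleton,
      sgn_empty, add_sub_add_right_eq_sub, sub_zero]
    simp only [← sub_eq_add_neg]
    linear_combination (-(chi k.p i (u.1 - u'.1) * (sgn {v} u.1 u'.1 * gPl u u' + eta k.p i {v} u.1 * eta k.p i {v} u'.1 *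
      (gBr (u.1 - v, u.2) (u'.1 - v, u'.2) - sgn {v} u.1 u'.1 * gPl u u')))) * h6
  · have hT := agb_T hk hi
    simp only [Geom.Bulk, Geom.Far, hc0 x hx, gBr0, gPl0, gPlane, hw', and_true, Set.mem_empty_iff_false, false_or,
      Finset.mem_singleton, forall_eq, ← sub_eq_add_neg, supd_sub]
    refine ⟨fun h b hb => ?_, fun h => h v (Or.inr hv)⟩
    by_cases hbv : b = v
    · rwa [hbv]
    · have := agb_far hx (hf b (hb.imp_right fun hb => Finset.mem_erase.2 ⟨hbv, hb⟩))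
      omega
  · rw [hc hx hx', sgn_erase hv, ← mul_assoc, (sgn_isSign _ x).mul_self, one_mul]
    exact hsh x x'

/-- killing the sources located outside the window -/
theorem D6.agree_self (p : Par) (𝔤 : Geom) (P : Set ℕ) (W : Finset Site) (j : ℕ) (hP : ∀ i ∈ P, i < 𝔤.m)
    (hW : ∀ i < 𝔤.m, (𝔤.y i).1 ∈ W → i ∈ P) :
    Agree p 𝔤 𝔤 0 (fun _ => 1) (fun i => if i ∈ P then some i else none) W j := by
  have ht : trE 0 = id := funext fun e => by simp [trE]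
  have key : ∀ k k' : ℕ, (if k ∈ P then some k else none) = some k' → k ∈ P ∧ k = k' := fun k k' h => by
    split_ifs at h with hk
    exact ⟨hk, Option.some.inj h⟩
  refine ⟨fun _ => Or.inl rfl, fun e _ _ => by simp [ht], fun x _ => by rw [add_zero], fun B _ => by simp,
    fun k₁ k₂ k' h1 h2 => (key _ _ h1).2.trans (key _ _ h2).2.symm, fun k k' h => ?_,
    fun k' hk' h => ⟨k', if_pos (hW k' hk' (by simpa using h))⟩, fun i _ u v _ _ => by simp, fun i _ x _ => by rw [add_zero],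
    fun i _ x _ _ x' _ _ => by simp⟩
  obtain ⟨hk, rfl⟩ := key _ _ h
  exact ⟨hP k hk, hP k hk, by simp [ht], by simp, fun n => by simp [ht], fun _ _ => Iff.rfl⟩

end Crest.Agent.R165
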