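import Crest.Agent.R165.D6.Fin

/-! # R165/D6 (owner helper58): the background of the energy observables -/

set_option autoImplicit false
noncomputable section
open Classical

namespace Crest.Agent.R165
open D5 D6

theorem D6.bga_xi {X B ι : Type} [CommRing B] (G : Geo X) (r : ℕ) (I : Finset ι) (Z : ι → Finset X) (F : ι → B)
    {K : Finset X → B} {Λ : Finset X} (h0 : ∀ i ∈ I, (Z i).Nonempty) (hΛ : ∀ i ∈ I, Z i ⊆ Λ)
    (hs : ∀ i ∈ I, ∀ i' ∈ I, i ≠ i' → G.Sep r (Z i) (Z i')) (hK : ∀ Y, K Y = ∑ i ∈ I, if Y = Z i then F i else 0) :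
    G.Xi r K Λ = ∏ i ∈ I, (1 + F i) := by
  have hinj : Set.InjOn Z I := fun i hi i' hi' e => by
    by_contra hne
    obtain ⟨x, hx⟩ := h0 i hi
    exact (hs i hi i' hi' hne).not_mem hx (e ▸ hx)
  rw [Finset.prod_one_add, Geo.Xi]
  symm
  refine Finset.sum_of_injOn (fun s => s.image Z) ?_ ?_ ?_ ?_
  · exact Finset.image_injOn_powerset_of_injOn hinj
  · intro s hs'
    have h1 : s ⊆ I := Finset.mem_powerset.1 hs'
    refine Finset.mem_coe.2 (Geo.mem_fams.2 ⟨?_, ?_, ?_⟩) <;> simp only [Finset.forall_mem_image]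
    · exact fun i hi => hΛ i (h1 hi)
    · exact fun i hi => h0 i (h1 hi)
    · exact fun i hi i' hi' hne => hs i (h1 hi) i' (h1 hi') fun e => hne (congrArg Z e)
  · intro 𝒳 _ h𝒳
    by_contra hne
    refine h𝒳 ⟨I.filter fun i => Z i ∈ 𝒳, Finset.mem_coe.2 (Finset.mem_powerset.2 (Finset.filter_subset _ _)), ?_⟩
    ext Y
    simp only [Finset.mem_image, Finset.mem_filter]
    refine ⟨fun ⟨i, hi, e⟩ => e ▸ hi.2, fun hY => ?_⟩
    have h2 : K Y ≠ 0 := fun e => hne (Finset.prod_eq_zero hY e)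
    rw [hK] at h2
    obtain ⟨i, hi, h3⟩ := Finset.exists_ne_zero_of_sum_ne_zero h2
    have e : Y = Z i := by
      by_contra e
      exact h3 (if_neg e)
    exact ⟨i, ⟨hi, e ▸ hY⟩, e.symm⟩
  · intro s hs'
    have h1 : s ⊆ I := Finset.mem_powerset.1 hs'
    rw [Finset.prod_image (hinj.mono (Finset.coe_subset.2 h1))]
    refine Finset.prod_congr rfl fun i hi => ?_
    rw [hK, Finset.sum_eq_single_of_mem i (h1 hi) fun i' hi' hne => if_neg fun e => hne (hinj hi' (h1 hi) e.symm), if_pos rfl]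

/-- `M0_eq`; `xi_grp` with `K = 0` and `Geo.grp_lin'` give `Xi l0 M0 Λ = ∏ Y ∈ Λ.powerset, (1 + M0 Y)` -/
theorem D6.xi_zero {p : Par} (hp : p.OK) {R : ℕ} {𝔤 : Geom} {c : ℝ × ℝ} (hI : InitOK p R c 𝔤) (hN : 0 < 𝔤.jN)
    (hs : ∀ k < 𝔤.m, ∀ k' < 𝔤.m, k ≠ k' → 4 * p.l0 ≤ supd (𝔤.y k).1 (𝔤.y k').1) {Λ : Finset Site} (hΛ : 𝔤.Λ ⊆ ↑Λ) :
    geoZ.Xi p.l0 (𝔤.M0 p c) Λ = ∏ i ∈ Finset.range 𝔤.m, (1 + (-2 * (1 + c.2) * tOf c / tc) •
      (tO 𝔤 i - (tc * gPl (he0 (𝔤.y i)) (he1 (𝔤.y i))) • tau i)) := by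
  have hl : 800 ≤ p.l0 := by simpa [Par.l] using l_pos hp 0
  have hd : ∀ e : Edge, ∀ z ∈ enS e, supd z e.1 ≤ 1 := fun e z hz => by
    rcases Finset.mem_insert.1 hz with rfl | hz
    · rw [B3.supd_self]; exact Nat.zero_le _
    · rw [Finset.mem_singleton.1 hz, B3.supd_uv]
  refine bga_xi geoZ p.l0 (Finset.range 𝔤.m) (fun i => enS (𝔤.y i)) _ (fun i _ => Finset.insert_nonempty _ _) (fun i hi => ?_)
    (fun i hi i' hi' hne z hz z' hz' => ?_) fun Z => by convert M0_eq hp hI hN hs Z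
  · have hi := Finset.mem_range.1 hi
    rw [← (hI.ener hN i hi).2.1]
    exact Finset.coe_subset.1 ((hI.obs i hi).2.2.1.trans hΛ)
  · have h1 := hs i (Finset.mem_range.1 hi) i' (Finset.mem_range.1 hi') hne
    have h2 := hd _ z hz
    have h3 := hd _ z' hz'
    have h4 := B3.supd_tri (𝔤.y i).1 z (𝔤.y i').1
    have h5 := B3.supd_tri z z' (𝔤.y i').1
    rw [B3.supd_comm (𝔤.y i).1 z] at h4
    rw [D5.geoZ_d]
    omega

/-- `qm_eq`, `obsC_qm` (`dC = 0` outside `box (y i) (3 ℓ_j)` and outside `Λ` since `qm = 0` there), `exA_sum`, `exA_of_sq`, `tau_sq` -/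
theorem D6.exA_qm {p : Par} (hp : p.OK) {R : ℕ} {c : ℝ × ℝ} {𝔤 : Geom} (hI : InitOK p R c 𝔤) (hN : 0 < 𝔤.jN) (μ : ℝ)
    (V : Finset Site → ℝ) (j : ℕ) {Λ : Finset Site} (hΛ : (𝔤.st p c μ V j).In Λ) (b : ℕ → ℝ) :
    exA augE (∑ x ∈ Λ, (𝔤.st p c μ V j).qm x) * ∏ i ∈ Finset.range 𝔤.m, (1 + b i • tO 𝔤 i) =
      ∏ i ∈ Finset.range 𝔤.m, (1 + (b i + (𝔤.cE p c μ V (j + 1) i - 𝔤.cE p c μ V j i)) • tO 𝔤 i) := by
  have ht : ∀ i, tO 𝔤 i * tO 𝔤 i = 0 := fun i => by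
    rw [tO, mul_mul_mul_comm, tau_sq, zero_mul]
  have hA : ∀ x, (𝔤.st p c μ V j).qm x =
      ∑ i ∈ Finset.range 𝔤.m, 𝔤.obsC i ((𝔤.st p c μ V j).qm x : Al) • tO 𝔤 i := fun x => by
    rcases j with _ | j
    · simp [qm_zero hp hI μ V (Or.inl rfl) x]
    · exact (qm_eq hp hI μ V j x).trans (Finset.sum_congr rfl fun i hi => by
        rw [obsC_qm hp hI hN μ V j (Finset.mem_range.1 hi)])
  have hB : ∀ i < 𝔤.m, ∀ x, x ∉ box (𝔤.y i).1 (3 * p.l j) → 𝔤.obsC i ((𝔤.st p c μ V j).qm x : Al) = 0 := fun i hi x hx => by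
    rcases j with _ | j
    · simp [qm_zero hp hI μ V (Or.inl rfl) x]
    · rw [obsC_qm hp hI hN μ V j hi, dC, if_neg]
      rintro ⟨-, h⟩
      exact hx (B3.mem_box.2 (h.trans (Nat.mul_le_mul_left 3 (l_mono hp (Nat.le_succ j)))))
  have hC : ∀ i < 𝔤.m, ∑ x ∈ Λ, 𝔤.obsC i ((𝔤.st p c μ V j).qm x : Al) = 𝔤.cE p c μ V (j + 1) i - 𝔤.cE p c μ V j i :=
    fun i hi => by
      rw [Geom.cE, Geom.cE, Finset.sum_range_succ, add_sub_add_left_eq_sub, add_sub_cancel_left]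
      refine (Finset.sum_subset Finset.subset_union_left fun x _ hx => ?_).trans
        (Finset.sum_subset Finset.subset_union_right fun x _ hx => hB i hi x hx).symm
      simp [hΛ.qm x hx]
  rw [Finset.sum_congr rfl fun x _ => hA x, Finset.sum_comm, exA_sum augE D4.nilE, ← Finset.prod_mul_distrib]
  refine Finset.prod_congr rfl fun i hi => ?_
  rw [← Finset.sum_smul, hC i (Finset.mem_range.1 hi)]
  generalize 𝔤.cE p c μ V (j + 1) i - 𝔤.cE p c μ V j i = d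
  have h1 : exA augE (d • tO 𝔤 i) - 1 = d • tO 𝔤 i := exA_of_sq (by rw [smul_mul_smul_comm, ht, smul_zero])
  rw [sub_eq_iff_eq_add.1 h1, add_mul, mul_add, smul_mul_smul_comm, ht, smul_zero, add_zero, mul_one, one_mul, add_smul]
  abel

theorem D6.bgb_one (p : Par) (𝔤 : Geom) (j : ℕ) : (𝔤.sp p j).mu 1 = 1 := Subtype.ext (mu_one _)

theorem D6.bgb_P {p : Par} (hp : p.OK) {K : ℕ} (hK : 20 ≤ K) {Γs : ℝ} {𝔤 : Geom} {j : ℕ} (hG : GeoOK p K Γs 𝔤 j)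
    (hj : (j : ℕ∞) < 𝔤.jN) (h1 : 1 ≤ j) (b : ℕ → ℝ) : (𝔤.sp p j).mu (∏ i ∈ Finset.range 𝔤.m, (1 + b i • tO 𝔤 i)) =
      ∏ i ∈ Finset.range 𝔤.m, (1 + b i • tO 𝔤 i) := by
  rw [mu_prod hp hK hG hj fun i _ => add_mem (one_mem _) (Subalgebra.smul_mem _ (tO_mem p 𝔤 j i).1 _)]
  exact Finset.prod_congr rfl fun i hi => by rw [map_add, map_smul, bgb_one, mu_tO hp hK hG hj h1 (Finset.mem_range.1 hi)]

theorem D6.bgb_Q {p : Par} (hp : p.OK) {K : ℕ} (hK : 20 ≤ K) {Γs : ℝ} {𝔤 : Geom} (hG : GeoOK p K Γs 𝔤 0) {R : ℕ} {c : ℝ × ℝ}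
    (hI : InitOK p R c 𝔤) (hj : 0 < 𝔤.jN) (b : ℕ → ℝ) : (𝔤.sp p 0).mu (∏ i ∈ Finset.range 𝔤.m,
      (1 + b i • (tO 𝔤 i - (tc * gPl (he0 (𝔤.y i)) (he1 (𝔤.y i))) • tau i))) = ∏ i ∈ Finset.range 𝔤.m, (1 + b i • tO 𝔤 i) := by
  rw [mu_prod hp hK hG (by exact_mod_cast hj) fun i _ => add_mem (one_mem _) (Subalgebra.smul_mem _
    (sub_mem (tO_mem p 𝔤 0 i).1 (Subalgebra.smul_mem _ (tO_mem p 𝔤 0 i).2 _)) _)]
  exact Finset.prod_congr rfl fun i hi => by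
    rw [map_add, map_smul, bgb_one, mu_tO_zero hp hK hG hj (Finset.mem_range.1 hi) (hI.ener hj i (Finset.mem_range.1 hi)).2.2]

/-- the background after the last integration, energy observables.
(1) for `1 ≤ j ≤ min js jN`: `Xi ℓ_j M_j = ∏ (1 + cE j i • tO i)` (`xi_zero`, `xi_succ`, `exA_qm`, `mu_prod`, `mu_tO_zero`, `mu_tO`, `tO_mem`;
`cE 1 = cE 0` since `qm 0 = 0`); (2) for any `b` and the same `j`: `muE (extG g) ∏ (1 + b i • (tO i - κ_i • tau i)) =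
muE (extG (g - gle j)) ∏ (1 + b i • tO i)` (`mu_gle`, `gle_zero`, `mu_prod`); (3) for `j > jN`: `muE (extG (g - gle j)) (Xi ℓ_j M_j) =
muE (extG (g - gle jN)) ∏ (1 + cE (jN + 1) i • tO i)` (`xi_succ`, `qm_zero`, `exA_qm`, `mu_gle`) -/
theorem bg_energy {R : ℕ} {k : Cons} (hk : ConsOK R k) {V : Finset Site → ℝ} {c : ℝ × ℝ} (hc : -1 < c.2) (μ : ℝ) {𝔤 : Geom}
    (hI : InitOK k.p R c 𝔤) (ht : 𝔤.Typ) {js : ℕ} (h1 : 1 ≤ js) (hG : ∀ j < js, GeoOK k.p k.K k.Γs 𝔤 j) (hN : 0 < 𝔤.jN)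
    {g : HE → HE → ℝ} {Λ₀ Λf : Finset Site} {𝒮 : Finset (Finset Site)} {E₁ : Finset Edge} (hf : FinOK 𝔤 g Λ₀ Λf 𝒮 E₁) :
    cstA (muE (extG (g - 𝔤.gle k.p js)) (geoZ.Xi (k.p.l js) (𝔤.st k.p c μ V js).M Λf)) =
      cstA (muE (extG g) (∏ i ∈ Finset.range 𝔤.m,
        (1 + tau i * (𝔤.cE k.p c μ V (if (js : ℕ∞) ≤ 𝔤.jN then js else 𝔤.jN.toNat + 1) i •
          (𝔤.oK i - algebraMap ℝ Al (tc * gPl (he0 (𝔤.y i)) (he1 (𝔤.y i)))))))) := by
  have hp := hk.pok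
  have hR := hk.l0.2
  have hK := hk.big.2
  have hlt : ∀ {j : ℕ}, ((j + 1 : ℕ) : ℕ∞) < 𝔤.jN → (j : ℕ∞) < 𝔤.jN := fun h =>
    lt_trans (by exact_mod_cast Nat.lt_succ_self _) h
  have a1 : ∀ j : ℕ, j < js → (j : ℕ∞) < 𝔤.jN → geoZ.Xi (k.p.l (j + 1)) (𝔤.st k.p c μ V (j + 1)).M Λf =
      ∏ i ∈ Finset.range 𝔤.m, (1 + 𝔤.cE k.p c μ V (j + 1) i • tO 𝔤 i) := fun j => by
    induction j with
    | zero =>
      intro h0 _
      have e0 : k.p.l 0 = k.p.l0 := by simp [Par.l]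
      have hq := qm_zero hp hI μ V (Or.inl rfl)
      rw [xi_succ hp hR hI, Finset.sum_eq_zero fun x _ => hq x, exA_zero, one_mul, e0]
      refine (congrArg _ (xi_zero hp hI hN (fun i hi i' hi' hne => ?_) fun x hx => ?_)).trans
        ((bgb_Q hp hK (hG 0 h0) hI hN _).trans (Finset.prod_congr rfl fun i _ => ?_))
      · refine le_trans ?_ (((hG 0 h0).sep (by exact_mod_cast hN)).2.2 i hi i' hi' hne)
        exact Nat.mul_le_mul (by omega) (e0 ▸ l_mono hp (Nat.zero_le _))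
      · exact (hf.big x (by rwa [hf.vol] at hx)).1
      · simp [Geom.cE, hq]
    | succ j ih =>
      intro h0 hj
      rw [xi_succ hp hR hI, ih (by omega) (hlt hj), exA_qm hp hI hN μ V _ (st_in hp hR hc hI μ V hf _),
        bgb_P hp hK (hG _ h0) hj (by omega)]
      simp only [add_sub_cancel]
  have a2 : ∀ (b : ℕ → ℝ) (j : ℕ), j < js → (j : ℕ∞) < 𝔤.jN →
      muE (extG (g - 𝔤.gle k.p (j + 1))) (∏ i ∈ Finset.range 𝔤.m, (1 + b i • tO 𝔤 i)) = muE (extG g) (∏ i ∈ Finset.range 𝔤.m,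
        (1 + tau i * (b i • (𝔤.oK i - algebraMap ℝ Al (tc * gPl (he0 (𝔤.y i)) (he1 (𝔤.y i))))))) := fun b j => by
    induction j with
    | zero =>
      intro h0 _
      rw [← bgb_Q hp hK (hG 0 h0) hI hN, mu_gle, gle_zero, sub_zero]
      refine congrArg _ (Finset.prod_congr rfl fun i _ => ?_)
      rw [mul_smul_comm, mul_sub, ← Algebra.commutes, ← Algebra.smul_def, tO]
    | succ j ih =>
      intro h0 hj
      rw [← bgb_P hp hK (hG _ h0) hj (by omega), mu_gle, ih (by omega) (hlt hj)]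
  congr 1
  split_ifs with hjs
  · obtain ⟨j, rfl⟩ : ∃ j, js = j + 1 := ⟨js - 1, by omega⟩
    have hj : (j : ℕ∞) < 𝔤.jN := lt_of_lt_of_le (by exact_mod_cast Nat.lt_succ_self _) hjs
    rw [a1 j (by omega) hj, a2 _ j (by omega) hj]
  · obtain ⟨n, hn⟩ := ENat.ne_top_iff_exists.1 (ne_top_of_lt (not_le.1 hjs))
    rw [← hn] at hjs
    have h2 : n < js := by exact_mod_cast not_le.1 hjs
    obtain ⟨n, rfl⟩ : ∃ j, n = j + 1 := ⟨n - 1, by have : 0 < n := by exact_mod_cast hn ▸ hN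
                                                   omega⟩
    have hj : (n : ℕ∞) < 𝔤.jN := by rw [← hn]; exact_mod_cast Nat.lt_succ_self _
    rw [← hn, ENat.toNat_natCast, ← a2 _ n (by omega) hj]
    have a3 := a1 n (by omega) hj
    clear hjs a1 a2 hG h1
    induction js, h2 using Nat.le_induction with
    | base =>
      rw [xi_succ hp hR hI, mu_gle, a3, exA_qm hp hI hN μ V _ (st_in hp hR hc hI μ V hf _)]
      simp only [add_sub_cancel]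
    | succ j hj' ih =>
      rw [xi_succ hp hR hI, mu_gle, Finset.sum_eq_zero fun x _ => qm_zero hp hI μ V (Or.inr (by rw [← hn]; exact_mod_cast hj')) x,
        exA_zero, one_mul, ih]

end Crest.Agent.R165
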