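import Crest.Agent.R165.D6.Q

/-! # R165/D6 (owner helper58): the extracted constants -/

set_option autoImplicit false
noncomputable section
open Classical

namespace Crest.Agent.R165
open D5 D6

/-- `sp_loc_mu`, `cstA_idem`; `cstA` kills `toEv (mvG ..) F` (`toEv_mvG`: `cstA (eM ..) = 0`) and `toEv (loc2G ..) F` (every term of `loc2 x G` is
of degree two in the half-edge generators: `gmap T (deg2 (gmap P G)) = deg2 (gmap (T ∘ P) G)`, `T ∘ P = 0`, `gmap_zero`; `toEv_gmap`) -/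
theorem D6.en_eq (p : Par) (𝔤 : Geom) (c : ℝ × ℝ) (μ : ℝ) (V : Finset Site → ℝ) (j : ℕ) (x : Site) :
    𝔤.en p c μ V j x = cstA (muE (𝔤.Cov p j) (Fx (p.l j) (Kq p 𝔤 c μ V j) x)) := by
  change cstA ((𝔤.sp p j).w geoZ (𝔤.st p c μ V j) x) = _
  rw [Sp.w, geoZ_ball, Fx, map_sum, map_sum, map_sum]
  refine Finset.sum_congr rfl fun Y _ => ?_
  by_cases h : geoZ.Small (p.l j) Y ∧ x ∈ Y
  · rw [if_pos h, if_pos (show geoZ.Small (𝔤.sp p j).l Y ∧ x ∈ Y from h), Sp.Wx, sp_loc_mu, map_smul, map_smul, map_smul, map_add cstA (_ + _), map_add cstA (cstA _), cstA_idem,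
      (D4.cst_kills p 𝔤 j x _).1, (D4.cst_kills p 𝔤 j x _).2, add_zero, add_zero]
    rfl
  · rw [if_neg h, if_neg (show ¬ (geoZ.Small (𝔤.sp p j).l Y ∧ x ∈ Y) from h), map_zero, map_zero, map_zero]

/-- `gmap_mu` (`S = univ`), `gmap_comp` -/
theorem D6.cst_mu_trA (g : HE → HE → ℝ) (ρ : ℕ → Option ℕ) (F : Al) :
    cstA (muE (extG g) (trA 0 (fun _ => 1) ρ F)) = trA 0 (fun _ => 1) ρ (cstA (muE (extG g) F)) := by
  have h : muE (extG g) (trA 0 (fun _ => 1) ρ F) = trA 0 (fun _ => 1) ρ (muE (extG g) F) := by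
    refine Subtype.ext ?_
    show mu _ (gmap (trV 0 (fun _ => 1) ρ) (F : Gr Ix)) = gmap (trV 0 (fun _ => 1) ρ) (mu _ (F : Gr Ix))
    rw [D4.trV_eq]
    refine D4.sV_mu (S := Set.univ) (D4.isSrc_rhoB ρ) (fun i _ j _ => by simp [D4.shH]) ?_
    exact supA_mono (show Set.univ ⊆ D4.hS Set.univ from fun i _ a _ => Set.mem_univ a) (mem_supA_univ _)
  rw [h]
  exact D4.sV_cst _ _ (D4.isSrc_rhoB ρ) _

theorem D6.enb_two {I J : Type} (d d' : Module.Dual ℝ (GV I)) (a b : GV J) (x : Gr I) :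
    gmap (d.smulRight a + d'.smulRight b) x = algebraMap ℝ _ (aug x) + aug (ctr d x) • ExteriorAlgebra.ι ℝ a +
      aug (ctr d' x) • ExteriorAlgebra.ι ℝ b + aug (ctr d' (ctr d x)) • (ExteriorAlgebra.ι ℝ a * ExteriorAlgebra.ι ℝ b) := by
  induction x using CliffordAlgebra.left_induction with
  | algebraMap r => simp [CliffordAlgebra.contractLeft_algebraMap]
  | add x y hx hy => simp only [map_add, hx, hy, add_smul]; abel
  | ι_mul x m hx =>
    have e1 : ExteriorAlgebra.ι ℝ a * (ExteriorAlgebra.ι ℝ a * ExteriorAlgebra.ι ℝ b) = 0 := by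
      rw [← mul_assoc, ExteriorAlgebra.ι_sq_zero, zero_mul]
    have e2 : ExteriorAlgebra.ι ℝ b * (ExteriorAlgebra.ι ℝ a * ExteriorAlgebra.ι ℝ b) = 0 := by
      rw [iota_swap a b, mul_neg, ← mul_assoc, ExteriorAlgebra.ι_sq_zero, zero_mul, neg_zero]
    rw [map_mul, gmap_iota, hx]
    simp only [ctr_iota_mul, map_sub, map_smul, map_mul, aug_iota, zero_mul, sub_zero, map_zero, zero_add, smul_eq_mul,
      LinearMap.add_apply, LinearMap.smulRight_apply, map_add, add_mul, mul_add, smul_mul_assoc, mul_smul_comm,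
      ExteriorAlgebra.ι_sq_zero, e1, e2, smul_zero, add_zero, iota_swap b a, Algebra.algebraMap_eq_smul_one, mul_one]
    module

/-- an even element of `supA {a, b}` is `r + u θ_a θ_b` (`supA_induction` for `r + s θ_a + t θ_b + u θ_a θ_b`, then `involute`) -/
theorem D6.cst_one (P : Set ℕ) (hP : P.Subsingleton) (m : ℕ) (hm : ∀ i ∈ P, i < m) (F : Al) :
    trA 0 (fun _ => 1) (fun i => if i ∈ P then some i else none) (cstA F) =
      algebraMap ℝ Al (augE F) + ∑ i ∈ Finset.range m, (if i ∈ P then coefT [i] (cstA F) else 0) • tau i := by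
  apply Subtype.ext
  let T₀ : GV Ix →ₗ[ℝ] GV Ix := vmap (Sum.elim (fun _ => 0) fun p : ℕ × Bool => dz p.1 p.2)
  set T := trV 0 (fun _ => 1) (fun i => if i ∈ P then some i else none) ∘ₗ T₀ with hT
  have h0 : (trA 0 (fun _ => 1) (fun i => if i ∈ P then some i else none) (cstA F) : Gr Ix) = gmap T (cstA F : Al) := by
    rw [hT, ← gmap_comp]
    conv_lhs => rw [← cstA_idem F]
    rfl
  have h1 : aug ((cstA F : Al) : Gr Ix) = aug (F : Gr Ix) := BA.aug_gmap _ _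
  rw [h0]
  rcases hP.eq_empty_or_singleton with hP' | ⟨i, hP'⟩
  · have : T = 0 := by
      refine Finsupp.lhom_ext' fun i => LinearMap.ext_ring ?_
      rcases i with i | ⟨k, b⟩ <;> simp [hT, hP', T₀, trV, vmap, dz]
    rw [this, gmap_zero, h1, Finset.sum_eq_zero fun k _ => by simp [hP'], add_zero]
    rfl
  · have : T = (Finsupp.lapply (Sum.inr (i, false)) : Module.Dual ℝ (GV Ix)).smulRight (dz i false) +
        (Finsupp.lapply (Sum.inr (i, true)) : Module.Dual ℝ (GV Ix)).smulRight (dz i true) := by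
      refine Finsupp.lhom_ext' fun k => LinearMap.ext_ring ?_
      rcases k with k | ⟨k, b⟩
      · simp [hT, T₀, trV, vmap, dz]
      · by_cases hk : k = i
        · subst hk
          cases b <;> simp [hT, hP', T₀, trV, vmap, dz]
        · simp [hT, hP', T₀, trV, vmap, dz, hk]
    have hi : i ∈ P := by simp [hP']
    rw [this, enb_two, h1, aug_odd ((ctr_evenOdd _).1 _ (cstA F).2), aug_odd ((ctr_evenOdd _).1 _ (cstA F).2),
      Finset.sum_eq_single i (fun k _ hk => by simp [hP', hk]) (fun h => absurd (Finset.mem_range.2 (hm i hi)) h),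
      if_pos hi, zero_smul, zero_smul, add_zero, add_zero]
    simp only [coefT, List.map_cons, List.map_nil, List.prod_cons, List.prod_nil, mul_one]
    rfl

/-- `flow_local` for a geometry compared with itself: no hypothesis on the potential -/
theorem D6.ena_local {p : Par} (hp : p.OK) {R : ℕ} (V : Finset Site → ℝ) {c : ℝ × ℝ} (μ : ℝ) {𝔤 : Geom} (h' : InitOK p R c 𝔤)
    {σ : Site → ℝ} {ρ : ℕ → Option ℕ} (x₀ : Site) (r j : ℕ) (hA : Agree p 𝔤 𝔤 0 σ ρ (box x₀ (r + p.l j / 20 + 5)) j) :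
    (𝔤.st p c μ V j).Rel (· + 0) (trA 0 σ ρ) ↑(box x₀ r) (𝔤.st p c μ V j) := by
  induction j generalizing r with
  | zero =>
    have hW : ∀ x ∈ (↑(box x₀ r) : Set Site), box x 1 ⊆ box x₀ (r + p.l 0 / 20 + 5) := fun x hx =>
      box_subset_box (Finset.mem_coe.1 hx) (by omega)
    have hW0 : ∀ x ∈ (↑(box x₀ r) : Set Site), x ∈ box x₀ (r + p.l 0 / 20 + 5) := fun x hx => hW x hx (self_mem_box x 1)
    refine (D4.lsym_shift 0).s0_rel (trA 0 σ ρ) p c μ V _ (fun x hx => D4.tr_q hA c μ V (hW x hx))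
      (fun e h0 h1 => D4.tr_xE hA c (hW0 _ h0) (hW0 _ h1)) (fun Y hY n => D4.tr_actO h' hA (fun x hx => hW0 x (hY hx)) n)
      fun Y hY n => ?_
    have e : n ∘ trE 0 = n := funext fun e => by simp [trE]
    rw [e, Geom.actV, Geom.actV, AlgHom.commutes]
    simp only [add_zero, Finset.image_id']
  | succ j ih =>
    obtain ⟨l1, l2⟩ := D4.l_ge hp j
    have l3 : 20 * p.l j ≤ p.l (j + 1) / 20 := by omega
    have r1 := ih (r + 2 * p.l j) (D4.agree_mono hA (box_mono _ (by omega)) (Nat.le_succ j))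
    have hb : ∀ {Z : Finset Site}, (↑Z : Set Site) ⊆ ↑(box x₀ (r + 2 * p.l j)) → ∀ x ∈ Z, ∀ n, n ≤ 18 * p.l j →
        box x n ⊆ box x₀ (r + p.l (j + 1) / 20 + 5) := fun hZ x hx n hn =>
      box_subset_box (Finset.mem_coe.1 (hZ (Finset.mem_coe.2 hx))) (by omega)
    exact (D4.step_rel hp (𝔤 := 𝔤) (𝔤' := 𝔤) j (φ := (· + 0)) (trA 0 σ ρ) (W := ↑(box x₀ (r + 2 * p.l j)))
      (W' := ↑(box x₀ r)) (D4.lsym_shift 0).bφ (D4.lsym_shift 0).iso (D4.augE_gmapE _)
      (fun F => D4.sV_cst _ _ (D4.isSrc_rhoB ρ) F)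
      (fun t Z F hZ hF => D4.tr_mu hA t (fun x hx => hb hZ x hx _ (by rw [Par.rho]; omega)) hF)
      (fun Z x F hZ hs hx hF => D4.tr_loc2G hA (by omega) (hb hZ x hx _ (by omega)) (D4.small_supp hp hs hx hF (by omega)))
      (fun Z x F hZ hs hx hF => D4.tr_mvG hA (by omega) (hb hZ x hx _ (by omega)) (D4.small_supp hp hs hx hF (by omega)))
      (fun x hx => Finset.coe_subset.2 (box_subset_box (Finset.mem_coe.1 hx) le_rfl)) (D4.st_lcl' hp 𝔤 c μ V j) r1).1

/-- before the cluster regime the extracted constants are affine in the sources.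
`P = {i < m | supd x (y i).1 ≤ ρ_j}` is a subsingleton (`GeoOK.sep`), `agree_self` + `flow_local` at the level `j`, `r = 2 ℓ_j` give
`Fx .. x = trA 0 1 ρ (Fx .. x)` (`Fx_trA`), then `en_eq`, `cst_mu_trA`, `cst_one` -/
theorem en_form {R : ℕ} {k : Cons} (hk : ConsOK R k) {V : Finset Site → ℝ} {c : ℝ × ℝ} (μ : ℝ) {𝔤 : Geom}
    (hI : InitOK k.p R c 𝔤) {j : ℕ} (hG : GeoOK k.p k.K k.Γs 𝔤 j) (hj : (j : ℕ∞) < 𝔤.jN ∨ 𝔤.m ≤ 1) (x : Site) :
    𝔤.en k.p c μ V j x = algebraMap ℝ Al (augE (𝔤.en k.p c μ V j x)) +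
      ∑ i ∈ Finset.range 𝔤.m, (if supd x (𝔤.y i).1 ≤ k.p.rho j then coefT [i] (𝔤.en k.p c μ V j x) else 0) • tau i := by
  obtain ⟨l1, l2⟩ := D4.l_ge hk.pok j
  set P : Set ℕ := {i | i < 𝔤.m ∧ supd x (𝔤.y i).1 ≤ k.p.rho j} with hP
  have hsub : P.Subsingleton := by
    rintro i ⟨hi, hx⟩ i' ⟨hi', hx'⟩
    rcases hj with hj | hj
    · by_contra hne
      have h1 := (hG.sep hj).2.2 i hi i' hi' hne
      have h2 := supd_triangle (𝔤.y i).1 x (𝔤.y i').1
      have h3 := Nat.mul_le_mul_right (k.p.l (j + 1)) hk.big.2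
      rw [supd_comm (𝔤.y i).1 x] at h2
      rw [Par.rho] at hx hx'
      omega
    · omega
  have hA := agree_self k.p 𝔤 P (box x (2 * k.p.l j + k.p.l j / 20 + 5)) j (fun i hi => hi.1) fun i hi hy => ⟨hi, by
    have h1 := mem_box.1 hy
    rw [supd_comm, Par.rho]
    omega⟩
  have h1 := Fx_trA (ena_local hk.pok V μ hI x (2 * k.p.l j) j hA)
  have h2 := cst_one P hsub 𝔤.m (fun i hi => hi.1) (muE (𝔤.Cov k.p j) (Fx (k.p.l j) (Kq k.p 𝔤 c μ V j) x))
  rw [Geom.Cov, ← cst_mu_trA, ← h1, ← Geom.Cov] at h2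
  rw [en_eq]
  refine h2.trans ?_
  congr 1
  · rw [cstA, D4.augE_gmapE]
  · refine Finset.sum_congr rfl fun i hi => ?_
    simp only [hP, Set.mem_ofPred_eq, Finset.mem_range.1 hi, true_and]

end Crest.Agent.R165
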