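import Crest.Agent.R165.D6.Q
import Crest.Agent.R165.E.InitG

/-! # R165/D6 (owner helper58): exact formulas in finite volume -/

set_option autoImplicit false
noncomputable section
open Classical

namespace Crest.Agent.R165
open D5 D6

/-- `mu_add`; `extG` is additive -/
theorem D6.mu_gle (p : Par) (𝔤 : Geom) (g : HE → HE → ℝ) (j : ℕ) (F : Al) :
    muE (extG (g - 𝔤.gle p (j + 1))) ((𝔤.sp p j).mu F) = muE (extG (g - 𝔤.gle p j)) F := by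
  have h : extG (g - 𝔤.gle p j) = extG (g - 𝔤.gle p (j + 1)) + 𝔤.Cov p j := by
    funext a b
    rcases a with a | a <;> rcases b with b | b <;> simp [extG, Geom.Cov]
  refine Subtype.ext ?_
  rw [h]
  exact (mu_add _ _ _).symm

/-- `mu_exA_xi` with `sp_alg`, `st_lcl` (no finite-volume hypothesis) -/
theorem D6.xi_succ {p : Par} (hp : p.OK) {R : ℕ} (hR : 10 * R + 20 ≤ p.l0) {c : ℝ × ℝ} {𝔤 : Geom} (hI : InitOK p R c 𝔤) (μ : ℝ)
    (V : Finset Site → ℝ) (j : ℕ) (Λ : Finset Site) :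
    geoZ.Xi (p.l (j + 1)) (𝔤.st p c μ V (j + 1)).M Λ = (𝔤.sp p j).mu (exA augE (∑ x ∈ Λ, (𝔤.st p c μ V j).qm x) *
      geoZ.Xi (p.l j) (𝔤.st p c μ V j).M Λ) := by
  have hl := st_lcl hp hR hI μ V j
  exact (mu_exA_xi geoZ D1.nil_augE (sp_alg p hp.1 hp.2.1 hp.2.2.1 𝔤 j) hl.qm hl.M hl.Mc Λ).symm

/-- `q_succ`, `toEv_mvG` -/
theorem D6.qm_zero {p : Par} (hp : p.OK) {R : ℕ} {c : ℝ × ℝ} {𝔤 : Geom} (hI : InitOK p R c 𝔤) (μ : ℝ)
    (V : Finset Site → ℝ) {j : ℕ} (hj : j = 0 ∨ 𝔤.jN < j) (x : Site) : (𝔤.st p c μ V j).qm x = 0 := by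
  rcases j with _ | j
  · rfl
  · have h1 : 𝔤.jN < ((j + 1 : ℕ) : ℕ∞) := hj.resolve_left (by omega)
    have h2 : ¬(j : ℕ∞) < 𝔤.jN := by
      rw [Nat.cast_succ, ENat.lt_add_one_iff (ENat.natCast_ne_top j)] at h1
      exact not_lt.2 h1
    rw [(q_succ hp hI μ V j x).2, toEv_mvG]
    exact Finset.sum_eq_zero fun i _ => if_neg fun h => h2 h.1

/-- `s0_Z`, `next_in` -/
theorem D6.st_in {p : Par} (hp : p.OK) {R : ℕ} (hR : 10 * R + 20 ≤ p.l0) {c : ℝ × ℝ} (hc : -1 < c.2) {𝔤 : Geom}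
    (hI : InitOK p R c 𝔤) (μ : ℝ) (V : Finset Site → ℝ) {g : HE → HE → ℝ} {Λ₀ Λf : Finset Site}
    {𝒮 : Finset (Finset Site)} {E₁ : Finset Edge} (hf : FinOK 𝔤 g Λ₀ Λf 𝒮 E₁) (j : ℕ) : (𝔤.st p c μ V j).In Λf := by
  induction j with
  | zero => exact (s0_Z hp hR hc hI μ V hf).1
  | succ j ih => exact (next_in geoZ (sp_alg p hp.1 hp.2.1 hp.2.2.1 𝔤 j) ih).1

theorem D6.finb_tau (k : ℕ) : cstA (tau k : Al) = tau k := by
  refine Subtype.ext ?_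
  rw [cstA, D1.coe_gmapE, tau, D1.coe_th2, map_mul, D1.gmap_vmap_th, D1.gmap_vmap_th]
  rfl

theorem D6.finb_cst {G : Al} (h : (G : Gr Ix) ∈ supA (Set.range Sum.inl)) : cstA G = algebraMap ℝ Al (aug (G : Gr Ix)) := by
  refine Subtype.ext ?_
  rw [cstA, D1.coe_gmapE, Subalgebra.coe_algebraMap]
  generalize (G : Gr Ix) = x at h
  refine supA_induction ?_ (fun x y hx hy => ?_) (fun c x hx => ?_) (fun i hi x _ _ => ?_) h
  · simp
  · rw [map_add, map_add, map_add, hx, hy]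
  · rw [map_smul, map_smul, hx, smul_eq_mul, map_mul, Algebra.smul_def]
  · obtain ⟨a, rfl⟩ := hi
    rw [map_mul, map_mul, D1.gmap_vmap_th, th, aug_iota]
    simp

/-- the background after the last integration, one local observable.
Induction on `js` (`xi_succ`, `qm_zero`, `mu_gle`, `gle_zero`) reduces to `js = 0`; `Xi l0 M0 Λf = 1 + M0 (oS 0)` (`M0_ne_zero` is not enough:
`M0 Z = 0` unless `Z = oS 0` by `Geo.grp_lin'` in `Cfg → Al` with `I = {0}`; then `xi_grp` with `K = 0`, `Geo.grp_lin'`, or sum over `fams` directly);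
`hat x E (fun n => O n • tau 0) = tau 0 * hat x E (algebraMap ∘ O)`, `muE_cst_mul`, and `cstA G = algebraMap (augE G)` for `G` in
`supA (range inl)` (`mu_mem_supA`, `supA_induction`) -/
theorem bg_local {R : ℕ} {k : Cons} (hk : ConsOK R k) {V : Finset Site → ℝ} {c : ℝ × ℝ} (μ : ℝ) {𝔤 : Geom}
    (hI : InitOK k.p R c 𝔤) (js : ℕ) (hN : 𝔤.jN = 0) (hm : 𝔤.m = 1)
    {g : HE → HE → ℝ} {Λ₀ Λf : Finset Site} {𝒮 : Finset (Finset Site)} {E₁ : Finset Edge} (hf : FinOK 𝔤 g Λ₀ Λf 𝒮 E₁) :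
    cstA (muE (extG (g - 𝔤.gle k.p js)) (geoZ.Xi (k.p.l js) (𝔤.st k.p c μ V js).M Λf)) =
      1 + gauss (extG g) ((hat (𝔤.xE c) (edgesIn (𝔤.oS 0)) (fun n => algebraMap ℝ Al (𝔤.O 0 n)) : Al) : Gr Ix) • tau 0 := by
  induction js with
  | succ j ih =>
    have hj : j = 0 ∨ 𝔤.jN < j := by
      rw [hN]
      exact (Nat.eq_zero_or_pos j).imp_right fun h => by exact_mod_cast h
    rw [xi_succ hk.pok hk.l0.2 hI, mu_gle, Finset.sum_eq_zero fun x _ => qm_zero hk.pok hI μ V hj x, exA_zero, one_mul, ih]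
  | zero =>
    obtain ⟨h1, -, h2, -⟩ := hI.obs 0 (by omega)
    have hA : ∀ Y, Y ≠ 𝔤.oS 0 → 𝔤.actO Y = 0 := fun Y hY => by
      funext n
      simp [Geom.actO, hm, Finset.filter_singleton, hY.symm]
    have hM : ∀ Z, 𝔤.M0 k.p c Z = hat (𝔤.xE c) (edgesIn Z) (𝔤.actO Z) := fun Z => by
      rw [Geom.M0, E.grp_single geoZ _ h1 hA]
    have hs : 𝔤.oS 0 ⊆ Λf := fun x hx => (hf.big x (by
      have := h2 (Finset.mem_coe.2 hx)
      rwa [hf.vol] at this)).1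
    have hO : 𝔤.actO (𝔤.oS 0) = fun n => tau 0 * algebraMap ℝ Al (𝔤.O 0 n) := by
      funext n
      rw [Geom.actO, hm, Finset.range_one, Finset.filter_singleton, if_pos rfl, Finset.prod_singleton, add_sub_cancel_left,
        Algebra.smul_def, mul_comm]
    have hH : ((hat (𝔤.xE c) (edgesIn (𝔤.oS 0)) (fun n => algebraMap ℝ Al (𝔤.O 0 n)) : Al) : Gr Ix) ∈
        supA (Set.range Sum.inl) :=
      E.hat_mem (A := Al) ((supA (Set.range Sum.inl)).comap (Subalgebra.val _)) (fun e _ => Subalgebra.smul_mem _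
        (show th _ * th _ ∈ supA (Set.range Sum.inl) from
          (supA _).mul_mem (th_mem_supA (Set.mem_range_self _)) (th_mem_supA (Set.mem_range_self _))) _)
        fun n => Subalgebra.algebraMap_mem _ _
    change cstA (muE _ (geoZ.Xi _ (𝔤.M0 k.p c) Λf)) = _
    rw [gle_zero, sub_zero, E.xi_single geoZ _ h1.1 hs fun Y hY => by rw [hM, hA Y hY]; simp [hat], hM, hO, E.hat_const_mul,
      map_add, map_add, ← finb_tau 0, muE_cst_mul, map_mul, cstA_idem, finb_cst (G := muE _ (hat _ _ _)) (mu_mem_supA _ hH),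
      show muE (extG g) (1 : Al) = 1 from Subtype.ext (mu_one _), map_one, Algebra.smul_def, mul_comm]
    rfl

theorem D6.fina_en (p : Par) (𝔤 : Geom) (c : ℝ × ℝ) (μ : ℝ) (V : Finset Site → ℝ) (s : Finset ℕ) (Λ : Finset Site) :
    ∃ a : Al, exA augE (∑ j ∈ s, ∑ x ∈ Λ, 𝔤.en p c μ V j x) = cstA a := by
  refine ⟨exA augE (∑ j ∈ s, ∑ x ∈ Λ, (𝔤.sp p j).w geoZ (𝔤.st p c μ V j) x), ?_⟩
  rw [← exA_cst, map_sum]
  simp only [map_sum]
  rfl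

theorem D6.fina_ind {p : Par} (hp : p.OK) {R : ℕ} (hR : 10 * R + 20 ≤ p.l0) {c : ℝ × ℝ} (hc : -1 < c.2) {𝔤 : Geom}
    (hI : InitOK p R c 𝔤) (μ : ℝ) (V : Finset Site → ℝ) {g : HE → HE → ℝ} {Λ₀ Λf : Finset Site}
    {𝒮 : Finset (Finset Site)} {E₁ : Finset Edge} (hf : FinOK 𝔤 g Λ₀ Λf 𝒮 E₁) (j : ℕ) :
    muE (extG g) ((𝔤.s0 p c μ V).Z geoZ augE p.l0 Λf) = exA augE (∑ i ∈ Finset.range j, ∑ x ∈ Λf, 𝔤.en p c μ V i x) *
      muE (extG (g - 𝔤.gle p j)) ((𝔤.st p c μ V j).Z geoZ augE (p.l j) Λf) := by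
  induction j with
  | zero =>
    rw [Finset.sum_range_zero, exA_zero, one_mul, gle_zero, sub_zero, Par.l, pow_zero, mul_one]
    rfl
  | succ j ih =>
    have h1 := next_Z geoZ D1.nil_augE (sp_alg p hp.1 hp.2.1 hp.2.2.1 𝔤 j) (st_lcl hp hR hI μ V j)
      (D6.st_in hp hR hc hI μ V hf j)
    obtain ⟨a, ha⟩ := D6.fina_en p 𝔤 c μ V {j} Λf
    rw [Finset.sum_singleton] at ha
    have h2 : (𝔤.sp p j).mu ((𝔤.st p c μ V j).Z geoZ augE (p.l j) Λf) =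
        cstA a * (𝔤.st p c μ V (j + 1)).Z geoZ augE (p.l (j + 1)) Λf := by
      rw [← ha]
      exact h1
    rw [ih, ← D6.mu_gle p 𝔤 g j, h2, muE_cst_mul, Finset.sum_range_succ, exA_add _ D1.nil_augE, ha, mul_assoc]

/-- **final formula**: `s0_Z`; by induction on `j`, `muE (extG g) s0.Z = exA (Σ_{i<j} Σ_x en i x) * muE (extG (g - gle j)) (st j).Z`
(`next_Z`, `mu_gle`, `gle_zero`, `en i x = cstA _`, `exA_cst`, `muE_cst_mul`, `exA_add`, `cstA_idem`);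
`err = cstA (muE .. (Z - Xi M))`, `final_bound`, `final_cst` (hypothesis `hU` as in `en_SN`) -/
theorem final_formula {R : ℕ} {k : Cons} (hk : ConsOK R k) {V : Finset Site → ℝ} {c : ℝ × ℝ} (hc : -1 < c.2) (μ : ℝ)
    {𝔤 : Geom} (hI : InitOK k.p R c 𝔤) {js : ℕ} {α : ℝ} (hF : FlowOK k 𝔤 c μ V js α) (hh : 0 < 𝔤.h js)
    {g : HE → HE → ℝ} {Λ₀ Λf : Finset Site} {𝒮 : Finset (Finset Site)} {E₁ : Finset Edge} (hf : FinOK 𝔤 g Λ₀ Λf 𝒮 E₁)
    {N : ℕ} (hN : geoZ.cov (k.p.l js) Λf ≤ N)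
    (hg : Gram (⋃ x ∈ Λf, 𝔤.U k.p js x) (extG (g - 𝔤.gle k.p js)) 1) :
    ∃ err : Al, BdT (𝔤.h js) err (Real.exp (N * k.ε) * (Real.exp (7 * N * (α * vth ^ js)) - 1)) ∧
      𝔤.Ztau c μ V 𝒮 E₁ = (Real.sqrt (1 + c.2) ^ (-(4 * Λ₀.card : ℤ)) * Zc E₁ 𝔤.w) •
        (exA augE (∑ j ∈ Finset.range js, ∑ x ∈ Λf, 𝔤.en k.p c μ V j x) *
          (cstA (muE (extG (g - 𝔤.gle k.p js)) (geoZ.Xi (k.p.l js) (𝔤.st k.p c μ V js).M Λf)) + err)) := by
  have hb := final_bound geoZ (bdAx k.p 𝔤 js) (one_le_a hk) hN (hF.K js le_rfl) (hF.M js le_rfl) (hF.q js le_rfl) (hF.qm js le_rfl)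
  refine ⟨_, final_cst hh hg (fun u hu => ?_) hb, ?_⟩
  · simp only [Set.mem_iUnion] at hu
    obtain ⟨y, -, hu | ⟨i, b, t, -, -, h1, h2⟩⟩ := hu
    · exact Or.inl fun i hi => (hu.1 i hi).imp fun a h => h.1
    · exact Or.inr ⟨i, b, t, h1, h2⟩
  · obtain ⟨a, ha⟩ := D6.fina_en k.p 𝔤 c μ V (Finset.range js) Λf
    rw [(s0_Z hk.pok hk.l0.2 hc hI μ V hf).2, D6.fina_ind hk.pok hk.l0.2 hc hI μ V hf js, ha, map_mul, cstA_idem, ← map_add,
      ← map_add, add_sub_cancel]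

end Crest.Agent.R165
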