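import Crest.Agent.R165.D6.FlowM

/-! # R165/D6 (owner helper58): the flow stays small -/

set_option autoImplicit false
noncomputable section
open Classical

namespace Crest.Agent.R165
open D5 D6

theorem D6.c_small {R : ℕ} {k : Cons} (hk : ConsOK R k) {V : Finset Site → ℝ} {c : ℝ × ℝ} {μ B : ℝ}
    (hT : Tuned k R V c μ B) : |c.1| + |c.2| ≤ B := by
  obtain ⟨ν, z, h1, h2, h⟩ := hT
  have h3 := (h 0).2
  have hl : (1 : ℝ) ≤ k.p.l 0 := by exact_mod_cast one_le_l hk 0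
  have hΓ := one_le_Gam hk 0
  simp only [if_true, pow_zero, mul_one, h1, h2] at h3
  refine le_trans ?_ h3
  have h4 : |c.1| + |c.2| ≤ |c.1| * k.p.l 0 + |c.2| := by nlinarith [abs_nonneg c.1]
  exact (h4.trans (le_mul_of_one_le_right (by positivity) (one_le_pow₀ hl))).trans
    (le_mul_of_one_le_right (by positivity) (one_le_pow₀ hΓ))

theorem D6.c0_le {c : ℝ × ℝ} (h : |c.1| + |c.2| ≤ 1 / 10) : |-2 * (1 + c.2) * tOf c / tc| ≤ 4 := by
  have h1 := abs_le.1 (show |c.1| ≤ 1 / 10 by linarith [abs_nonneg c.2])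
  have h2 := abs_le.1 (show |c.2| ≤ 1 / 10 by linarith [abs_nonneg c.1])
  have h3 := tc_pos
  have h4 := tc_sq
  have h5 : 1 / 3 ≤ tc := by nlinarith
  have h6 : -2 * (1 + c.2) * tOf c = -2 * ((1 + c.2) * tc + c.1) := by
    have : 1 + c.2 ≠ 0 := by linarith
    rw [tOf]; field_simp
  rw [h6, abs_div, abs_of_pos h3.1, div_le_iff₀ h3.1, abs_le]
  constructor <;> nlinarith

/-- **the flow stays small** -/
theorem flow_bound {R : ℕ} {k : Cons} (hk : ConsOK R k) {V : Finset Site → ℝ} (hV : PotOK R V) :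
    ∃ C₁ B₁ ε₂ CM : ℝ, 1 ≤ C₁ ∧ 0 < B₁ ∧ 0 < ε₂ ∧ 1 ≤ CM ∧ C₁ * B₁ ≤ 1 ∧ FlowBd k R V C₁ B₁ ε₂ CM := by
  obtain ⟨C₀, ε₀, hC₀, hε₀, h0⟩ := s0_bound hk hV
  have hp := hk.pok
  have ha := one_le_a hk
  obtain ⟨-, hΛ, -, hC, hε, -⟩ := hk.one
  have hl0 : (1 : ℝ) ≤ k.p.l0 := by exact_mod_cast hp.2.2.1
  obtain ⟨N, hN⟩ : ∃ N : ℝ, N = ((2 * k.p.L + 3 : ℕ) : ℝ) ^ 2 := ⟨_, rfl⟩
  have N0 : 0 ≤ N := by rw [hN]; positivity
  obtain ⟨Aq, hAq⟩ : ∃ Aq, Aq = C₀ + 9 * k.Λ := ⟨_, rfl⟩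
  obtain ⟨A, hA⟩ : ∃ A, A = C₀ + k.a * Aq := ⟨_, rfl⟩
  obtain ⟨At, hAt⟩ : ∃ At, At = A + k.a * Aq := ⟨_, rfl⟩
  obtain ⟨Am, hAm⟩ : ∃ Am, Am = 16 * N * k.Λ * At + Aq := ⟨_, rfl⟩
  have Aq1 : 1 ≤ Aq := by linarith
  have aq : 0 ≤ k.a * Aq := by positivity
  have A1 : 1 ≤ A := by linarith
  have At1 : 1 ≤ At := by linarith
  have x0 : 0 ≤ 16 * N * k.Λ * At := by positivity
  have Am1 : Aq ≤ Am := by linarith
  obtain ⟨C₁, hC₁⟩ : ∃ C₁, C₁ = A + Am + 81 * k.Λ * At := ⟨_, rfl⟩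
  have x1 : 0 ≤ k.Λ * At := by positivity
  have C1 : 1 ≤ C₁ := by nlinarith
  obtain ⟨τ, τ0, τ1, τ2, τ3⟩ : ∃ τ : ℝ, 0 < τ ∧ τ ≤ 1 ∧ τ ≤ k.ε ∧ 64 * k.C * (A + Am) * τ ≤ A := by
    refine ⟨min (min 1 k.ε) (A / (64 * k.C * (A + Am))), by have : 0 < A + Am := by linarith
                                                            positivity,
      (min_le_left _ _).trans (min_le_left _ _), (min_le_left _ _).trans (min_le_right _ _), ?_⟩
    have : 0 < A + Am := by linarith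
    rw [← le_div_iff₀' (by positivity)]
    exact min_le_right _ _
  obtain ⟨ε₂, e0, e1, e2⟩ : ∃ ε₂ : ℝ, 0 < ε₂ ∧ ε₂ ≤ ε₀ ∧ (2 * C₀ + 22 * (k.a * k.Λ)) * ε₂ ≤ τ := by
    refine ⟨min ε₀ (τ / (2 * C₀ + 22 * (k.a * k.Λ))), by positivity, min_le_left _ _, ?_⟩
    rw [← le_div_iff₀' (by positivity)]
    exact min_le_right _ _
  obtain ⟨B₁, b0, b1, b2, b3, b4⟩ : ∃ B₁ : ℝ, 0 < B₁ ∧ B₁ ≤ ε₀ ∧ B₁ ≤ 1 / 10 ∧ C₁ * B₁ ≤ τ ∧
      162 * k.Λ * k.p.l0 * At * B₁ ≤ ε₂ := by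
    refine ⟨min (min ε₀ (1 / 10)) (min (τ / C₁) (ε₂ / (162 * k.Λ * k.p.l0 * At))), by positivity,
      (min_le_left _ _).trans (min_le_left _ _), (min_le_left _ _).trans (min_le_right _ _), ?_, ?_⟩
    · rw [← le_div_iff₀' (by positivity)]
      exact (min_le_right _ _).trans (min_le_left _ _)
    · rw [← le_div_iff₀' (by positivity)]
      exact (min_le_right _ _).trans (min_le_right _ _)
  refine ⟨C₁, B₁, ε₂, 1, C1, b0, e0, le_rfl, b3.trans τ1, fun 𝔤 c μ B js hT hμ hB hjs hI hG _ hΓ0 hΓ hS => ?_⟩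
  have B0 : 0 ≤ B := (abs_nonneg μ).trans hμ
  have hc := c_small hk hT
  have g0 := hG 0 hjs
  obtain ⟨k0, m0, q0⟩ := h0 𝔤 c μ ε₂ hI hΓ0 (by linarith [abs_nonneg c.2]) (by linarith [abs_nonneg c.1]) (by linarith)
    e0.le e1 (Or.inr g0.wt.1) (hS.imp_right fun hS => by
      have h1 := hS.zero
      split_ifs at h1 with h2
      · exact Or.inl ⟨h2, h1⟩
      · refine Or.inr ⟨pos_iff_ne_zero.2 h2, (hΓ0 ▸ h1 : 𝔤.h 0 * k.Gam 0 ^ 2 = ε₂).le, fun i hi i' hi' hne => ?_⟩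
        have h3 := (g0.sep (pos_iff_ne_zero.2 h2)).2.2 i hi i' hi' hne
        have h4 := Nat.mul_le_mul hk.big.2 (l_mono hp (Nat.zero_le (0 + 1)))
        have h5 : k.p.l 0 = k.p.l0 := by simp [Par.l]
        omega)
  have l0 : k.p.l0 = k.p.l 0 := by simp [Par.l]
  rw [l0] at k0 m0 q0
  have hq : ∀ j ≤ js, geoZ.SN (𝔤.Bd k.p j) (k.p.l j) (𝔤.st k.p c μ V j).q (Aq * B * vth ^ j) := fun j hj => by
    cases j with
    | zero => exact q0.mono (by rw [pow_zero, hAq]; nlinarith)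
    | succ j =>
      refine (q_SN hk hV hT hI (hG j hj) (hΓ _ hj)).mono ?_
      rw [hAq]
      nlinarith [mul_nonneg (mul_nonneg (zero_le_one.trans hC₀) B0) (pow_pos D6.vth_pos (j + 1)).le]
  have hKq : ∀ j ≤ js, geoZ.PN (𝔤.Bd k.p j) (k.p.l j) k.a (𝔤.st k.p c μ V j).K (A * B * vth ^ j) →
      geoZ.PN (𝔤.Bd k.p j) (k.p.l j) k.a (Kq k.p 𝔤 c μ V j) (At * B * vth ^ j) := fun j hj h =>
    (h.add_sgl (bdAx _ _ _) (by linarith) (hq j hj)).mono (le_of_eq (by rw [hAt]; ring))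
  have hM : ∀ j ≤ js, (∀ i < j, geoZ.PN (𝔤.Bd k.p i) (k.p.l i) k.a (Kq k.p 𝔤 c μ V i) (At * B * vth ^ i)) →
      geoZ.PN (𝔤.Bd k.p j) (k.p.l j) k.a (𝔤.st k.p c μ V j).M τ := fun j hj h => by
    rcases hS with hS | hS
    · rw [M_zero hp hI hS]
      exact Geo.PN.zero (bdAx _ _ _) τ0.le
    · have y1 : 0 ≤ C₀ * ε₂ := by positivity
      have y2 : 0 ≤ k.a * k.Λ * ε₂ := by positivity
      exact M_bd hk hI hG hS e0 (by positivity) (le_trans (by
        rw [← mul_assoc]; exact mul_le_mul_of_nonneg_left hB (by positivity)) b4) (c0_le (by linarith))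
        (by linarith) τ1 (by linarith) m0 j hj h
  have hqm : ∀ j ≤ js, (∀ i < j, geoZ.PN (𝔤.Bd k.p i) (k.p.l i) k.a (Kq k.p 𝔤 c μ V i) (At * B * vth ^ i)) →
      geoZ.SN (𝔤.Bd k.p j) (k.p.l j) (𝔤.st k.p c μ V j).qm (Am * B * vth ^ j) := fun j hj h => by
    have hv := pow_pos D6.vth_pos j
    cases j with
    | zero => exact Geo.SN.zero (bdAx _ _ _) (by have : 0 ≤ Am := by linarith
                                                 positivity)
    | succ j =>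
      refine (qm_SN hk hI (hG j hj) (h j j.lt_succ_self)).mono ?_
      rw [← hN, hAm, pow_succ, show vth = 1 / 16 from rfl] at *
      nlinarith [mul_nonneg (mul_nonneg (zero_le_one.trans Aq1) B0) hv.le]
  have hK : ∀ j ≤ js, geoZ.PN (𝔤.Bd k.p j) (k.p.l j) k.a (𝔤.st k.p c μ V j).K (A * B * vth ^ j) := by
    intro j
    induction j using Nat.strong_induction_on with
    | _ j ih =>
      intro hj
      cases j with
      | zero => exact k0.mono (by rw [pow_zero, hA]; nlinarith)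
      | succ j =>
        have h1 : ∀ i < j, geoZ.PN (𝔤.Bd k.p i) (k.p.l i) k.a (Kq k.p 𝔤 c μ V i) (At * B * vth ^ i) :=
          fun i hi => hKq i (by omega) (ih i (by omega) (by omega))
        obtain ⟨κ, hA'⟩ := (hk.step 𝔤 j (hG j hj)).ana
        have hl := st_lcl hp hk.l0.2 hI μ V j
        obtain ⟨u, hu⟩ : ∃ u, u = B * vth ^ j := ⟨_, rfl⟩
        have u0 : 0 ≤ u := by rw [hu]; exact mul_nonneg B0 (pow_pos D6.vth_pos j).le
        have u1 : u ≤ B₁ := by rw [hu]; exact (mul_le_of_le_one_right B0 (D6.vth_pow_le j)).trans hB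
        have u2 : (A + Am) * u ≤ τ := le_trans (mul_le_mul (by nlinarith) u1 u0 (by linarith)) b3
        have u3 : 0 ≤ A * u := by positivity
        have u4 : 0 ≤ Am * u := mul_nonneg (by linarith) u0
        have h2 := ih j j.lt_succ_self (by omega)
        have h3 := hq j (by omega)
        have h4 := hqm j (by omega) h1
        rw [mul_assoc, ← hu] at h2 h3 h4
        refine (hk.nb Site Al geoZ augE (𝔤.Lc k.p j) (𝔤.sp k.p j) (𝔤.Bd k.p j) (𝔤.Bd k.p (j + 1)) κ (𝔤.st k.p c μ V j)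
          (A * u) (Am * u) (1 / 128 * (Aq * u)) τ (one_le_l hk j) (l_succ _ _) (bdAx _ _ _) (bdAx _ _ _)
          (sp_alg k.p hp.1 hp.2.1 hp.2.2.1 𝔤 j) hA' hl (by linarith) (by linarith) τ2 h2 (hM j (by omega) h1)
          (h3.mono (mul_le_mul_of_nonneg_right Am1 u0)) h4 (Geo.SN.dump hA' hl.q h3)).mono ?_
        have h5 : k.C * (A * u + Am * u) * (A * u + Am * u + τ) ≤ k.C * (A * u + Am * u) * (2 * τ) :=
          mul_le_mul_of_nonneg_left (by linarith) (by positivity)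
        have h6 := mul_le_mul_of_nonneg_right τ3 u0
        have h7 := mul_le_mul_of_nonneg_right (show k.a * Aq ≤ A by linarith) u0
        rw [pow_succ, mul_assoc A, ← mul_assoc B, ← hu, show vth = 1 / 16 from rfl]
        linarith
  have hKq' := fun j hj => hKq j hj (hK j hj)
  have mono : ∀ {X : ℝ} (j : ℕ), X ≤ C₁ → X * B * vth ^ j ≤ C₁ * B * vth ^ j := fun j h =>
    mul_le_mul_of_nonneg_right (mul_le_mul_of_nonneg_right h B0) (pow_pos D6.vth_pos j).le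
  refine ⟨fun j hj => (hK j hj).mono (mono j (by linarith)),
    fun j hj => (hM j hj fun i hi => hKq' i (by omega)).mono τ2,
    fun j hj => (hq j hj).mono (mono j (by linarith)),
    fun j hj => (hqm j hj fun i hi => hKq' i (by omega)).mono (mono j (by linarith)),
    fun j hj => (en_SN hk hI (hG j hj) (hKq' j hj.le)).mono
      (le_trans (le_of_eq (by ring)) (mono (X := k.Λ * At) j (by linarith))),
    fun j hj i hi hN => (cE_bd hk hI (hG j hj) (hKq' j hj.le) hi hN).trans ?_⟩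
  have hh := (hG j hj).wt.1
  refine div_le_div_of_nonneg_right (mul_le_mul_of_nonneg_right ?_ (Nat.cast_nonneg _)) (by positivity)
  exact le_trans (le_of_eq (by ring)) (mono (X := 81 * k.Λ * At) j (by linarith))

end Crest.Agent.R165
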