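import Crest.Agent.R165.D6.Sep

/-! # R165/D6 (owner helper58): the background stays small -/

set_option autoImplicit false
noncomputable section
open Classical

namespace Crest.Agent.R165.D6
open D5

variable {R : ℕ} {k : Cons} {V : Finset Site → ℝ} {𝔤 : Geom} {c : ℝ × ℝ} {μ : ℝ}

theorem vth_pos : 0 < vth := by norm_num [vth]
theorem vth_pow_le (j : ℕ) : vth ^ j ≤ 1 := pow_le_one₀ vth_pos.le (by norm_num [vth])

theorem M_zero {p : Par} (hp : p.OK) (hI : InitOK p R c 𝔤) (hm : 𝔤.m = 0) (j : ℕ) : (𝔤.st p c μ V j).M = fun _ => 0 := by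
  induction j with
  | zero =>
    funext Z
    by_contra h
    obtain ⟨i, hi, -⟩ := M0_ne_zero (p := p) (𝔤 := 𝔤) (c := c) h
    omega
  | succ j ih =>
    have h1 : ∀ x, (𝔤.st p c μ V j).qm x = 0 := fun x => by
      cases j with
      | zero => rfl
      | succ j => rw [qm_eq hp hI, hm, Finset.sum_range_zero]
    funext Z
    change (𝔤.sp p j).mu (geoZ.grp (p.l j) (p.l (j + 1)) (sgl fun x => exA augE ((𝔤.st p c μ V j).qm x) - 1)
      (𝔤.st p c μ V j).M Z) = _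
    suffices h : geoZ.grp (p.l j) (p.l (j + 1)) (sgl fun x => exA augE ((𝔤.st p c μ V j).qm x) - 1)
      (𝔤.st p c μ V j).M Z = 0 by rw [h, map_zero]
    by_contra h
    obtain ⟨Y, -, h | h⟩ := geoZ.grp_ne_zero h
    · exact h (sgl_eq_zero _ fun x _ => by rw [h1, exA_zero, sub_self])
    · exact h (congrFun ih Y)

theorem geoOK_h {p : Par} {K : ℕ} {Γs : ℝ} {j : ℕ} (hG : GeoOK p K Γs 𝔤 j) (h : ℕ → ℝ) (h0 : 0 < h j) (h1 : 0 < h (j + 1))
    (h2 : h (j + 1) ≤ (if (j : ℕ∞) < 𝔤.jN then (if j = 0 then 𝔤.Gam 0 ^ 2 * p.l 1 / 𝔤.Gam 1 ^ 2 else (p.L : ℝ)) else 1) * h j) :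
    GeoOK p K Γs { 𝔤 with h := h } j :=
  { hG with wt := ⟨h0, h1, h2⟩ }

theorem bd_h (p : Par) (𝔤 : Geom) {h : ℕ → ℝ} {j : ℕ} (hh : h j = 𝔤.h j) :
    Geom.Bd p { 𝔤 with h := h } j = 𝔤.Bd p j := by
  refine congrArg BdU (funext fun x => ?_)
  simp only [Geom.U, Geom.Uz, hh]
  rfl

section
variable {js : ℕ} {ε₂ A' : ℝ} (hk : ConsOK R k) (hI : InitOK k.p R c 𝔤) (hG : ∀ j < js, GeoOK k.p k.K k.Γs 𝔤 j)
  (hS : SrcOK k 𝔤 js ε₂ 1) (hε : 0 < ε₂) (hA : 0 ≤ A') (hA' : 162 * k.Λ * k.p.l0 * A' ≤ ε₂)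
  (hc : |-2 * (1 + c.2) * tOf c / tc| ≤ 4)
include hk hI hG hS hε hA hA'

theorem lin_qm' {j : ℕ} (hj : j < js) (hN : (j : ℕ∞) < 𝔤.jN)
    (h : geoZ.PN (𝔤.Bd k.p j) (k.p.l j) k.a (Kq k.p 𝔤 c μ V j) (A' * vth ^ j)) :
    Lin 𝔤 (tO 𝔤) (3 * k.p.l j) (vth ^ j / 2) (sgl (𝔤.st k.p c μ V (j + 1)).qm) := by
  refine (lin_qm hk hI (hG j hj) h).mono le_rfl ?_
  have hΛ : 0 ≤ k.Λ := by linarith [hk.one.2.1]
  have hv := pow_pos vth_pos j
  have hl : (1 : ℝ) ≤ k.p.l0 := by exact_mod_cast hk.pok.2.2.1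
  have hl' : (1 : ℝ) ≤ k.p.l j := by exact_mod_cast one_le_l hk j
  rw [mul_comm (𝔤.Gam j ^ 2)]
  rcases Nat.eq_zero_or_pos j with rfl | h0
  · have h1 := hS.zero
    rw [if_neg (show 𝔤.jN ≠ 0 from ne_of_gt hN)] at h1
    rw [h1, div_le_iff₀ hε, show k.p.l 0 = k.p.l0 by simp [Par.l]]
    simp only [pow_zero]
    linarith
  · rw [hS.ener j hj.le h0 hN.le, div_le_iff₀ (by positivity)]
    have h2 : 162 * k.Λ * A' ≤ ε₂ := le_trans (by nlinarith [mul_nonneg hΛ hA]) hA'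
    nlinarith [mul_le_mul_of_nonneg_right h2 (show 0 ≤ vth ^ j * k.p.l j by positivity)]

include hc

theorem lin_M (j : ℕ) (hj : j < js) (hN : (j : ℕ∞) < 𝔤.jN)
    (h : ∀ i < j, geoZ.PN (𝔤.Bd k.p i) (k.p.l i) k.a (Kq k.p 𝔤 c μ V i) (A' * vth ^ i)) :
    Lin 𝔤 (tO 𝔤) (3 * k.p.l j) (5 - vth ^ j) (𝔤.st k.p c μ V (j + 1)).M := by
  have hp := hk.pok
  induction j with
  | zero =>
    have hl := l_pos hp 0
    have h1 := lin_zero hp hI hN fun i hi i' hi' hne => by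
      have h1 := ((hG 0 hj).sep hN).2.2 i hi i' hi' hne
      have h2 := Nat.mul_le_mul hk.big.2 (l_mono hp (Nat.zero_le (0 + 1)))
      have h3 : k.p.l 0 = k.p.l0 := by simp [Par.l]
      omega
    have h2 : sgl (𝔤.st k.p c μ V 0).qm = fun _ => 0 := funext fun Z => sgl_eq_zero _ fun _ _ => rfl
    refine (lin_step (μ := μ) (V := V) hp hk.big.2 (hG 0 hj) hN (fun i => ?_)
      (fun i hi => mu_tO_zero hp hk.big.2 (hG 0 hj) hN hi (hI.ener hN i hi).2.2) (by omega) h1 (h2 ▸ Lin.zero)).mono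
      (by omega) (by rw [pow_zero]; linarith)
    exact dvd_sub (tau_dvd 𝔤 i) (by rw [Algebra.smul_def]; exact Dvd.intro_left _ rfl)
  | succ j ih =>
    have hN' : (j : ℕ∞) < 𝔤.jN := lt_trans (by exact_mod_cast j.lt_succ_self) hN
    have hl := l_mono hp j.le_succ
    refine (lin_step hp hk.big.2 (hG _ hj) hN (tau_dvd 𝔤)
      (fun i hi => mu_tO hp hk.big.2 (hG _ hj) hN (by omega) hi) (Nat.mul_le_mul_left 3 hl)
      (ih (by omega) hN' fun i hi => h i (by omega))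
      (lin_qm' hk hI hG hS hε hA hA' (by omega) hN' (h j j.lt_succ_self))).mono (Nat.mul_le_mul_left 3 hl) ?_
    have := pow_pos vth_pos j
    rw [pow_succ, vth] at *
    linarith

theorem M_sep (j : ℕ) (hj : j < js) (hN : (j : ℕ∞) < 𝔤.jN)
    (h : ∀ i < j, geoZ.PN (𝔤.Bd k.p i) (k.p.l i) k.a (Kq k.p 𝔤 c μ V i) (A' * vth ^ i)) :
    geoZ.PN (𝔤.Bd k.p (j + 1)) (k.p.l (j + 1)) k.a (𝔤.st k.p c μ V (j + 1)).M (k.a * (k.Λ * ε₂) * 5) := by
  have hΛ : 0 ≤ k.Λ := by linarith [hk.one.2.1]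
  have hl := l_lt hk.pok j.lt_succ_self
  have hl' := l_pos hk.pok (j + 1)
  have hl1 : (0 : ℝ) < k.p.l (j + 1) := by exact_mod_cast one_le_l hk (j + 1)
  refine ((lin_M hk hI hG hS hε hA hA' hc j hj hN h).mono le_rfl (β' := 5) (by linarith [pow_pos vth_pos j])).pn
    (bdAx _ _ _) (by positivity) (one_le_a hk) (by simp only [Nat.succ_eq_add_one] at hl; omega) (fun i hi x hx => ?_)
    (by norm_num) fun i hi i' hi' hne => ?_
  · have h1 := (hk.step 𝔤 j (hG j hj)).oK i x hi hN (by omega)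
    rwa [mul_assoc, hS.ener (j + 1) hj (by omega) (Order.add_one_le_of_lt hN), ← mul_assoc,
      mul_div_cancel_right₀ _ hl1.ne'] at h1
  · have h1 := ((hG j hj).sep hN).2.2 i hi i' hi' hne
    have h2 := Nat.mul_le_mul_right (k.p.l (j + 1)) hk.big.2
    omega

theorem M_entry (j : ℕ) (hj : j + 1 < js) (hN : ((j + 1 : ℕ) : ℕ∞) = 𝔤.jN) (hs : 11 * (k.a * (k.Λ * ε₂)) ≤ 1)
    (h : ∀ i ≤ j, geoZ.PN (𝔤.Bd k.p i) (k.p.l i) k.a (Kq k.p 𝔤 c μ V i) (A' * vth ^ i)) :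
    geoZ.TN (𝔤.Bd k.p (j + 2)) (k.p.l (j + 2)) k.a (𝔤.st k.p c μ V (j + 2)).M (22 * (k.a * (k.Λ * ε₂))) := by
  have hp := hk.pok
  have ha := one_le_a hk
  have hΛ := hk.one.2.1
  have hN' : (j : ℕ∞) < 𝔤.jN := hN ▸ (by exact_mod_cast j.lt_succ_self)
  have hl := l_lt hp j.lt_succ_self
  simp only [Nat.succ_eq_add_one] at hl
  have hl1 : (0 : ℝ) < k.p.l (j + 1) := by exact_mod_cast one_le_l hk (j + 1)
  have g0 := hG j (by omega)
  have g1 := hG (j + 1) hj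
  have hd := hS.clu (j + 1) hj hN (by omega)
  have h2 : 0 < 𝔤.h (j + 2) := g1.wt.2.1
  have hm : (0 : ℝ) ≤ 𝔤.m := Nat.cast_nonneg _
  set h' := Function.update 𝔤.h (j + 1) (𝔤.h (j + 2)) with hh'
  have e0 : h' j = 𝔤.h j := Function.update_of_ne (by omega) _ _
  have e1 : h' (j + 1) = 𝔤.h (j + 2) := Function.update_self _ _ _
  have e2 : h' (j + 2) = 𝔤.h (j + 2) := Function.update_of_ne (by omega) _ _
  have g0' := geoOK_h g0 h' (e0 ▸ g0.wt.1) (e1 ▸ h2) (by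
    rw [e0, e1]; exact le_trans (by nlinarith) g0.wt.2.2)
  have g1' := geoOK_h g1 h' (e1 ▸ h2) (e2 ▸ h2) (by
    rw [e1, if_neg (hN ▸ lt_irrefl _), one_mul]; exact e2.le)
  set w := k.Λ * 𝔤.h (j + 2) * 𝔤.Gam (j + 1) ^ 2 / k.p.l (j + 1) with hw
  have w0 : 0 ≤ w := by positivity
  have w1 : 𝔤.m * w ≤ k.Λ * ε₂ := by
    have h3 := hS.ener (j + 1) hj.le (by omega) hN.le
    have h4 : 𝔤.m * 𝔤.h (j + 2) ≤ 𝔤.h (j + 1) := le_trans (by nlinarith) hd
    rw [hw, ← mul_div_assoc, div_le_iff₀ hl1, mul_assoc k.Λ ε₂, ← h3]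
    nlinarith [mul_le_mul_of_nonneg_right h4 (show 0 ≤ k.Λ * 𝔤.Gam (j + 1) ^ 2 by positivity)]
  have hB := bdAx k.p { 𝔤 with h := h' } (j + 1)
  have ht : ∀ i < 𝔤.m, ∀ x, supd x (𝔤.y i).1 ≤ 3 * k.p.l j → Geom.Bd k.p { 𝔤 with h := h' } (j + 1) {x} (tO 𝔤 i) w :=
    fun i hi x hx => by
      have := (hk.step _ j g0').oK i x hi hN' (by change supd x (𝔤.y i).1 ≤ _; omega)
      rw [hw, ← e1]
      exact this
  obtain ⟨b, b1, b2⟩ := ((lin_M hk hI hG hS hε hA hA' hc j (by omega) hN' fun i hi => h i hi.le).mono le_rfl (β' := 5)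
    (by linarith [pow_pos vth_pos j])).bd hB w0 ha (l := k.p.l (j + 1)) (by omega) ht
  obtain ⟨r, r1, r2⟩ := ((lin_qm' hk hI hG hS hε hA hA' (by omega) hN' (h j le_rfl)).mono le_rfl (β' := 1)
    (by linarith [vth_pow_le j])).bd hB w0 le_rfl (l := k.p.l (j + 1)) (by omega) ht
  have hM := Geo.TN.of_mass hB (by linarith : 0 < k.a) b1 (st_lcl hp hk.l0.2 hI μ V (j + 1)).Mc
    (β := 5 * (k.a * (k.Λ * ε₂))) fun 𝒮 => (b2 𝒮 (Finset.range 𝔤.m) (fun i hi _ _ _ _ => Finset.mem_range.2 hi)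
      (by norm_num)).trans (by rw [Finset.card_range]; nlinarith)
  have hx : 0 ≤ k.Λ * ε₂ := by positivity
  have hn := Geo.TN.next (S := 𝔤.sp k.p (j + 1)) hB (bdAx k.p 𝔤 (j + 2)) (l_mono hp (j + 1).le_succ) ha
    (s := 𝔤.st k.p c μ V (j + 1)) (fun hF => bd_h k.p 𝔤 e2 ▸ (hk.step _ (j + 1) g1').noloss hN.ge hF) hM
    (r := fun x => r {x}) (β := k.Λ * ε₂) (fun x => by simpa only [sgl_single] using (r1 {x}).2) (fun B => by
      have := r2 (B.image fun x => {x}) (Finset.range 𝔤.m) (fun i hi _ _ _ _ => Finset.mem_range.2 hi) zero_le_one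
      rw [Finset.sum_image fun _ _ _ _ h => Finset.singleton_injective h, Finset.card_range] at this
      simp only [one_pow, one_mul, mul_one] at this
      exact this.trans w1) (by nlinarith)
  refine hn.mono ?_
  rw [add_sub_cancel, ← Real.exp_add]
  have h5 := (abs_le.1 (Real.abs_exp_sub_one_le (x := 11 * (k.a * (k.Λ * ε₂)))
    (by rw [abs_of_nonneg (by positivity)]; exact hs))).2
  rw [abs_of_nonneg (by positivity)] at h5
  rw [show 5 * (k.a * (k.Λ * ε₂)) + 6 * k.a * (k.Λ * ε₂) = 11 * (k.a * (k.Λ * ε₂)) by ring]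
  linarith

theorem M_bd {E ε₀ : ℝ} (hs : 22 * (k.a * (k.Λ * ε₂)) ≤ E) (hE : E ≤ 1) (h0 : 2 * ε₀ ≤ E)
    (hM : geoZ.PN (𝔤.Bd k.p 0) (k.p.l 0) k.a (𝔤.st k.p c μ V 0).M ε₀) (j : ℕ) (hj : j ≤ js)
    (h : ∀ i < j, geoZ.PN (𝔤.Bd k.p i) (k.p.l i) k.a (Kq k.p 𝔤 c μ V i) (A' * vth ^ i)) :
    geoZ.PN (𝔤.Bd k.p j) (k.p.l j) k.a (𝔤.st k.p c μ V j).M E := by
  have hp := hk.pok
  have ha := one_le_a hk
  have hΛ := hk.one.2.1
  have e0 := hM.nonneg 0
  have hx : 0 ≤ k.a * (k.Λ * ε₂) := by positivity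
  have key : ∀ j ≤ js, (𝔤.jN < j ∨ 𝔤.jN = 0) →
      (∀ i < j, geoZ.PN (𝔤.Bd k.p i) (k.p.l i) k.a (Kq k.p 𝔤 c μ V i) (A' * vth ^ i)) →
      geoZ.TN (𝔤.Bd k.p j) (k.p.l j) k.a (𝔤.st k.p c μ V j).M E := by
    intro j
    induction j with
    | zero =>
      intro _ hN _
      have hN : 𝔤.jN = 0 := hN.resolve_left (by simp)
      refine (Geo.TN.of_pn (bdAx _ _ _) (by linarith) hM (𝔤.y 0).1 (fun Z hZ => ?_)
        (st_lcl hp hk.l0.2 hI μ V 0).Mc).mono ?_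
      · obtain ⟨i, hi, h⟩ := M0_ne_zero (p := k.p) (𝔤 := 𝔤) (c := c) hZ
        obtain rfl : i = 0 := by have := hS.clu0 hN; omega
        exact h (hI.obs 0 hi).2.1
      · have h5 := (abs_le.1 (Real.abs_exp_sub_one_le (x := ε₀) (by rw [abs_of_nonneg e0]; linarith))).2
        rw [abs_of_nonneg e0] at h5
        linarith
    | succ j ih =>
      intro hj hN h
      by_cases h1 : 𝔤.jN < j ∨ 𝔤.jN = 0
      · have hn := Geo.TN.next (S := 𝔤.sp k.p j) (bdAx k.p 𝔤 j) (bdAx k.p 𝔤 (j + 1)) (l_mono hp j.le_succ) ha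
          (s := 𝔤.st k.p c μ V j) (fun hF => (hk.step _ j (hG j hj)).noloss
            (h1.elim le_of_lt fun h => h ▸ zero_le) hF) (ih (by omega) h1 fun i hi => h i (by omega))
          (r := fun _ => 0) (β := 0) (fun x => by
            rw [qm_zero hp hI μ V (j := j) (by
              rcases h1 with h1 | h1
              · exact Or.inr h1
              · rcases Nat.eq_zero_or_pos j with h2 | h2
                · exact Or.inl h2
                · exact Or.inr (h1 ▸ by exact_mod_cast h2))]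
            exact (bdAx k.p 𝔤 j).zero _) (by simp) (by norm_num)
        exact hn.mono (by simp)
      · rw [not_or, not_lt] at h1
        have h2 : (j : ℕ∞) = 𝔤.jN := le_antisymm h1.1 (Order.le_of_lt_add_one (hN.resolve_right h1.2))
        cases j with
        | zero => exact (h1.2 h2.symm).elim
        | succ j =>
          exact (M_entry hk hI hG hS hε hA hA' hc j hj h2 (by linarith) fun i hi => h i (by omega)).mono hs
  by_cases h1 : 𝔤.jN < j ∨ 𝔤.jN = 0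
  · exact (key j hj h1 h).pn (bdAx _ _ _) (by linarith)
  · rw [not_or, not_lt] at h1
    cases j with
    | zero => exact hM.mono (by linarith)
    | succ j =>
      exact (M_sep hk hI hG hS hε hA hA' hc j hj (lt_of_lt_of_le (by exact_mod_cast j.lt_succ_self) h1.1)
        fun i hi => h i (by omega)).mono (by linarith)

end

end Crest.Agent.R165.D6
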