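import Crest.Agent.R165.D5.Main
import Crest.Agent.R165.P.Flow

/-! # R165/D6 (owner helper58): signs, critical neighbourhoods, the covariance far from the features -/

set_option autoImplicit false
noncomputable section
open Classical

namespace Crest.Agent.R165

/-- shape of the weights (first clause of `GeoOK.typ` without the estimates) -/
def Geom.Typ (𝔤 : Geom) : Prop :=
  (∃ E : Set Edge, 𝔤.w = wOf E 𝔤.S ∧ 𝔤.Bb = {b | BdryB E b}) ∨
    ∃ T : Set Site, 𝔤.w = wFree T 𝔤.S ∧ 𝔤.Bb = {b | BdryB (eDual T) b}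

theorem GeoOK.typ' {p : Par} {K : ℕ} {Γs : ℝ} {𝔤 : Geom} {j : ℕ} (hG : GeoOK p K Γs 𝔤 j) : 𝔤.Typ := by
  obtain ⟨ρ, -, ⟨E, -, h1, h2, -⟩ | ⟨T, -, -, h1, h2, -⟩⟩ := hG.typ
  exacts [Or.inl ⟨E, h1, h2⟩, Or.inr ⟨T, h1, h2⟩]

namespace D6
open D5

/-! ### task Geo-a -/

theorem sgn_isSign (S : Finset Site) (x : Site) : IsSign (sgn S x) := D2.isSign_sgn S x

theorem sgn_self (S : Finset Site) (x : Site) : sgn S x x = 1 := by
  rw [D2.geoa_sgn]
  exact Finset.prod_eq_one fun v _ => if_neg (by omega)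

theorem sgn_symm (S : Finset Site) (x y : Site) : sgn S y x = sgn S x y := by
  simp only [sgn, min_comm y.1, min_comm y.2, max_comm y.2]

theorem sgn_empty (x y : Site) : sgn ∅ x y = 1 := by
  simp [sgn]

/-- `fin_cases e.2`, `eray_0`; the two filters agree (`omega`) -/
theorem sgn_uv (S : Finset Site) (e : Edge) : sgn S e.1 (e.1 + uv e.2) = eray S e := by
  obtain ⟨⟨a, b⟩, j⟩ := e
  fin_cases j
  · simp only [Fin.zero_eta, add_uv_0, eray_0, D2.geoa_sgn]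
    exact Finset.prod_eq_one fun v _ => if_neg (by omega)
  · simp only [Fin.mk_one, add_uv_1, eray_1, D2.geoa_sgn]
    refine Finset.prod_congr rfl fun v _ => ?_
    simp only [sg]
    split_ifs <;> first | rfl | omega

/-- write `sgn S x y = ∏ v ∈ S, sg (…)` (as in `eray_1`), compare factor by factor: a spin `v ∉ box x₀ R` whose height is in the range
of the box lies strictly to the left or to the right of it; `split_ifs`, `omega` -/
theorem sgn_cocycle {S : Finset Site} {x₀ : Site} {R : ℕ} (h : ∀ v ∈ S, v ∉ box x₀ R) {x y z : Site}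
    (hx : x ∈ box x₀ R) (hy : y ∈ box x₀ R) (hz : z ∈ box x₀ R) : sgn S x y * sgn S x z = sgn S y z := by
  simp only [D2.geoa_sgn]
  rw [← Finset.prod_mul_distrib]
  refine Finset.prod_congr rfl fun v hv => ?_
  have := h v hv
  rw [mem_box'] at hx hy hz this
  simp only [sg]
  split_ifs <;> first | omega | norm_num

theorem sgn_erase {S : Finset Site} {v : Site} (hv : v ∈ S) (x y : Site) : sgn S x y = sgn (S.erase v) x y * sgn {v} x y := by
  simp only [D2.geoa_sgn]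
  rw [Finset.prod_singleton, Finset.prod_erase_mul _ _ hv]

theorem sgn_shift (v a x y : Site) : sgn {v + a} (x + a) (y + a) = sgn {v} x y := by
  simp only [D2.geoa_sgn, Finset.prod_singleton, sg, Prod.fst_add, Prod.snd_add]
  split_ifs <;> first | rfl | omega

/-- **critical neighbourhood.** Type P: `e₀ ∈ E`; if `e ∉ E` then `edgeB1 e` is frozen and `B3.bdry_near` (with `B3.edgeOf_he`) gives a
boundary site too close.  Free type: `|w e₀| = tc` forces `e₀ ∈ eIn T` (`tc < 1`), so the edge of `eDual T` joining `edgeB0 e₀` and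
`edgeB1 e₀` exists; by the type P argument for `eDual T` all edges within `r - 4` are in `eDual T`, all sites there are in `T`. -/
theorem crit_near {𝔤 : Geom} (ht : 𝔤.Typ) {e₀ : Edge} (h₀ : |𝔤.w e₀| = tc)
    {r : ℕ} (hb : ∀ b ∈ 𝔤.Bb, r ≤ supd e₀.1 b) {e : Edge} (he : supd e.1 e₀.1 + 6 ≤ r) : 𝔤.w e = tc * eray 𝔤.S e := by
  obtain ⟨E, hw, hB⟩ | ⟨T, hw, hB⟩ := ht
  · have h1 : e₀ ∈ E := by
      by_contra hn
      rw [hw, wOf, if_neg hn, abs_zero] at h₀
      exact tc_pos.1.ne h₀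
    have h2 : e ∈ E := D2.all_in (z := e₀.1) (j₀ := e₀.2) (r := supd e.1 e₀.1) (fun b hb' => by
      have := hb b (by rw [hB]; exact hb')
      omega) h1 e (mem_box.2 le_rfl)
    rw [hw, wOf, if_pos h2]
  · have h1 : e₀ ∈ eIn T := by
      by_contra hn
      rw [hw, wFree, if_neg hn, one_mul] at h₀
      rcases eray_sign 𝔤.S e₀ with h' | h' <;> rw [h'] at h₀ <;> simp at h₀ <;> exact tc_pos.2.ne' h₀
    have h2 : e ∈ eIn T := by
      rw [D2.geoa_dual] at h1 ⊢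
      have h6 := D2.geoa_B0 e₀
      rw [supd_comm] at h6
      refine D2.all_in (r := supd e.1 e₀.1 + 2) (fun b hb' => ?_) h1 _ ?_
      · have h3 := hb b (by rw [hB]; exact hb')
        have h4 := supd_triangle e₀.1 (edgeB0 e₀) b
        omega
      · rw [mem_box]
        have h4 := supd_triangle (edgeB0 e) e.1 (edgeB0 e₀)
        have h5 := supd_triangle e.1 e₀.1 (edgeB0 e₀)
        have h7 := D2.geoa_B0 e
        show supd (edgeB0 e) (edgeB0 e₀) ≤ _
        omega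
    rw [hw, wFree, if_pos h2]

/-! ### task Geo-b -/

theorem l_succ (p : Par) (j : ℕ) : p.l (j + 1) = p.L * p.l j := by
  simp only [Par.l]; ring

theorem l_pos {p : Par} (hp : p.OK) (j : ℕ) : 800 ≤ p.l j := by
  have := D3.lam_eq hp j
  omega

theorem l_mono {p : Par} (hp : p.OK) {i j : ℕ} (h : i ≤ j) : p.l i ≤ p.l j := by
  exact Nat.mul_le_mul_left _ (Nat.pow_le_pow_right (by have := hp.1; omega) h)

theorem l_lt {p : Par} (hp : p.OK) {i j : ℕ} (h : i < j) : 400 * p.l i ≤ p.l j := by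
  refine le_trans ?_ (l_mono hp (show i + 1 ≤ j from h))
  rw [l_succ]
  exact Nat.mul_le_mul_right _ hp.1

/-- far from everything the local covariance is the plane kernel (`eta_props`; one factor `eta … u.1` vanishes in every term) -/
theorem gloc_far {p : Par} (hp : p.OK) (𝔤 : Geom) (i : ℕ) (u v : HE)
    (h : ∀ b, (b ∈ 𝔤.Fz ∨ b ∈ 𝔤.S) → 4 * p.l i ≤ supd u.1 b) : 𝔤.gloc p i u v = sgn 𝔤.S u.1 v.1 * gPl u v := by
  have h1 : eta p i 𝔤.Fz u.1 = 0 := (eta_props hp i _ _).2.2.1 fun b hb => h b (Or.inl hb)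
  have h2 : eta p i ↑𝔤.S u.1 = 0 := (eta_props hp i _ _).2.2.1 fun b hb => h b (Or.inr hb)
  have h3 : ∀ b ∈ 𝔤.S, eta p i {b} u.1 = 0 := fun b hb =>
    (eta_props hp i _ _).2.2.1 fun b' hb' => h b' (Or.inr (hb' ▸ hb))
  simp only [Geom.gloc, h1, h2, zero_mul, add_zero]
  rw [Finset.sum_eq_zero fun b hb => by rw [h3 b hb, zero_mul, zero_mul], ite_self, add_zero]

/-- `crit_near` for the edge `(b, 0)`, `eray_sign`, `tc_pos` -/
theorem fz_far {𝔤 : Geom} (ht : 𝔤.Typ) {e₀ : Edge} (h₀ : |𝔤.w e₀| = tc)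
    {r : ℕ} (hb : ∀ b ∈ 𝔤.Bb, r ≤ supd e₀.1 b) {b : Site} (h : b ∈ 𝔤.Fz) : r ≤ supd e₀.1 b + 5 := by
  rcases h with h | h
  · exact (hb b h).trans (Nat.le_add_right _ _)
  · by_contra h1
    refine h ?_
    rw [crit_near ht h₀ hb (e := (b, 0)) (by rw [supd_comm]; dsimp only; omega), abs_mul, abs_of_pos tc_pos.1]
    simp [eray]

/-- at the edge of an isolated observable the covariance is the plane one from the scale `1` on
(`gloc_far`, `fz_far`, `GeoOK.obs`, `GeoOK.sep`, `chi_props`: `chi = 1` at distance `≤ 1`; `sgn_uv`, `sgn_symm`) -/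
theorem gle_obs {p : Par} (hp : p.OK) {K : ℕ} (hK : 20 ≤ K) {Γs : ℝ} {𝔤 : Geom} {j : ℕ} (hG : GeoOK p K Γs 𝔤 j)
    (hj : (j : ℕ∞) < 𝔤.jN) {k : ℕ} (hk : k < 𝔤.m) {i : ℕ} (hi : 1 ≤ i) (hij : i ≤ j + 1) :
    𝔤.gle p i (he0 (𝔤.y k)) (he1 (𝔤.y k)) = eray 𝔤.S (𝔤.y k) * gPl (he0 (𝔤.y k)) (he1 (𝔤.y k)) ∧
    𝔤.gle p i (he1 (𝔤.y k)) (he0 (𝔤.y k)) = -(eray 𝔤.S (𝔤.y k) * gPl (he0 (𝔤.y k)) (he1 (𝔤.y k))) := by
  have h1 := l_mono hp hij
  have h2 := l_pos hp i
  have h3 : 20 * p.l (j + 1) ≤ K * p.l (j + 1) := Nat.mul_le_mul_right _ hK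
  have h4 : ∀ b, (b ∈ 𝔤.Fz ∨ b ∈ 𝔤.S) → 4 * p.l i + 1 ≤ supd (𝔤.y k).1 b := by
    rintro b (hb | hb)
    · have := fz_far hG.typ' (hG.obs k hk).1 (hG.obs k hk).2 hb
      omega
    · have := (hG.sep hj).2.1 k hk b hb
      omega
  have h5 : supd ((𝔤.y k).1 + uv (𝔤.y k).2) (𝔤.y k).1 ≤ 1 := by
    generalize (𝔤.y k).2 = a
    fin_cases a <;> simp [supd, uv]
  have h6 := (D3.lam_eq hp i).2.2.1
  have c1 : chi p i ((he0 (𝔤.y k)).1 - (he1 (𝔤.y k)).1) = 1 :=
    (chi_props hp i _).2.1 hi (by rw [supd_sub, supd_comm]; exact h5.trans (by omega))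
  have c2 : chi p i ((he1 (𝔤.y k)).1 - (he0 (𝔤.y k)).1) = 1 :=
    (chi_props hp i _).2.1 hi (by rw [supd_sub]; exact h5.trans (by omega))
  constructor
  · rw [Geom.gle, c1, one_mul, gloc_far hp 𝔤 i _ _ fun b hb => (Nat.le_succ _).trans (h4 b hb), ← sgn_uv]
    rfl
  · rw [Geom.gle, c2, one_mul, gloc_far hp 𝔤 i _ _ fun b hb => ?_, ← sgn_uv, sgn_symm, gPl_ker.1 (he0 _) (he1 _), mul_neg]
    · rfl
    · have h7 := h4 b hb
      have h8 := supd_triangle (𝔤.y k).1 ((𝔤.y k).1 + uv (𝔤.y k).2) b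
      rw [supd_comm (𝔤.y k).1 (_ + _)] at h8
      show _ ≤ supd ((𝔤.y k).1 + uv (𝔤.y k).2) b
      omega

theorem gle_zero (p : Par) (𝔤 : Geom) : 𝔤.gle p 0 = 0 := by
  funext u v
  simp [Geom.gle, chi]

end D6

end Crest.Agent.R165
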