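import Crest.Agent.R165.D6.Src

/-! # R165/D6 (owner helper58): the kept potential, the moved part, the energies -/

set_option autoImplicit false
noncomputable section
open Classical

namespace Crest.Agent.R165.D6
open D5

variable {R : ℕ} {k : Cons} {V : Finset Site → ℝ} {𝔤 : Geom} {c : ℝ × ℝ} {μ : ℝ}

theorem gmap_involute {I J : Type} (T : GV I →ₗ[ℝ] GV J) (y : Gr I) :
    CliffordAlgebra.involute (gmap T y) = gmap T (CliffordAlgebra.involute y) := by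
  have : (CliffordAlgebra.involute : Gr J →ₐ[ℝ] Gr J).comp (gmap T) =
      (gmap T).comp (CliffordAlgebra.involute : Gr I →ₐ[ℝ] Gr I) := by
    refine CliffordAlgebra.hom_ext (LinearMap.ext fun u => ?_)
    have h1 := gmap_iota T u
    have h2 : gmap T (CliffordAlgebra.ι 0 u) = CliffordAlgebra.ι 0 (T u) := h1
    simp [h2]
  exact AlgHom.congr_fun this y

theorem toEv_gmap {I J K : Type} (T : GV J →ₗ[ℝ] GV K) (L : Gr I →ₗ[ℝ] Gr J) (F : Ev I) :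
    toEv ((gmap T).toLinearMap ∘ₗ L) F = gmapE T (toEv L F) := by
  refine Subtype.ext ?_
  change (1 / 2 : ℝ) • (gmap T (L F) + CliffordAlgebra.involute (gmap T (L F))) =
    gmap T ((1 / 2 : ℝ) • (L F + CliffordAlgebra.involute (L F)))
  rw [gmap_involute, map_smul, map_add]

theorem q_succ {p : Par} (hp : p.OK) (hI : InitOK p R c 𝔤) (μ : ℝ) (V : Finset Site → ℝ) (j : ℕ) (x : Site) :
    (𝔤.st p c μ V (j + 1)).q x = toEv (𝔤.loc2G p j x) (Fx (p.l j) (Kq p 𝔤 c μ V j) x) ∧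
    (𝔤.st p c μ V (j + 1)).qm x = toEv (𝔤.mvG p j x) (Fx (p.l j) (Kq p 𝔤 c μ V j) x) := by
  obtain ⟨h1, h2⟩ := st_q_succ hp hI μ V j x
  rw [h1, h2, Fx, map_sum, map_sum]
  constructor <;> refine Finset.sum_congr rfl fun Y _ => ?_ <;> split_ifs <;> simp [Kq]

theorem q_nonbulk {p : Par} (hp : p.OK) (hI : InitOK p R c 𝔤) (μ : ℝ) (V : Finset Site → ℝ) {j : ℕ} {x : Site}
    (hx : ¬ 𝔤.Bulk p j x) : (𝔤.st p c μ V (j + 1)).q x = 0 := by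
  rw [(q_succ hp hI μ V j x).1, Geom.loc2G, if_neg hx]
  exact toEv_of_eq rfl

theorem Fx_trA {p : Par} {𝔤' : Geom} {j : ℕ} {x : Site} {Φ : Al →ₐ[ℝ] Al}
    (hr : (𝔤.st p c μ V j).Rel (· + 0) Φ ↑(box x (2 * p.l j)) (𝔤'.st p c μ V j)) :
    Fx (p.l j) (Kq p 𝔤' c μ V j) x = Φ (Fx (p.l j) (Kq p 𝔤 c μ V j) x) := by
  rw [Fx, Fx, map_sum]
  refine Finset.sum_congr rfl fun Y hY => ?_
  split_ifs with h
  · have hY' := Finset.coe_subset.2 (Finset.mem_powerset.1 hY)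
    have h2 := hr.K Y hY'
    simp only [add_zero, Finset.image_id'] at h2
    rw [map_smul, Kq, Kq, map_add, h2]
    congr 2
    rcases sgl_cases Y with ⟨y, rfl⟩ | h3
    · have h4 := hr.q y (hY' (by simp))
      rw [sgl_single, sgl_single, ← h4, add_zero]
    · rw [h3, h3, map_zero]
  · rw [map_zero]

theorem q_bulk (hk : ConsOK R k) (hV : PotOK R V) (hI : InitOK k.p R c 𝔤) (μ : ℝ) {j : ℕ}
    (ht : 𝔤.Typ) {x : Site} (hx : 𝔤.Bulk k.p j x) {Γ : ℕ → ℝ} {u : ℝ × ℝ}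
    (hu : ((gPl0 R Γ).st k.p c μ V (j + 1)).q x = qq u x) :
    (𝔤.st k.p c μ V (j + 1)).q x = u.1 • mX 𝔤.w x + u.2 • kX 𝔤.w x := by
  have hp := hk.pok
  have hI' := (initOK_plane hk c Γ Γ (0, 0)).1
  have hl := l_pos hp j
  have hA := agree_plane hk hI ht Γ (r := 2 * k.p.l j + k.p.l j / 20 + 5) (j := j) hx.2 fun b hb => by
    have h1 := hx.1 b hb
    have h2 := Nat.mul_le_mul_right (k.p.l j) hp.2.2.2
    omega
  have h1 := Fx_trA (flow_local hp hk.l0.2 hV μ hI hI' x (2 * k.p.l j) j hA).1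
  rw [(q_succ hp hI' μ V j x).1, loc2G_plane, h1] at hu
  rw [(q_succ hp hI μ V j x).1, Geom.loc2G, if_pos hx, toEv_gmap]
  have h5 : toEv (loc2 x ∘ₗ (gmap (gaugeV (sgn 𝔤.S x))).toLinearMap) (Fx (k.p.l j) (Kq k.p 𝔤 c μ V j) x) = qq u x := by
    rw [← hu]
    exact congrArg evP (loc2_trA x _ _).symm
  rw [h5]
  refine Subtype.ext (gauge_qq (sgn_isSign _ _) (fun α => ?_) u)
  have h6 := B3.supd_edgeOf x α
  have h7 := hA.w (edgeOf x α) (mem_box.2 (by omega)) (mem_box.2 (by omega))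
  have h8 := (sgn_isSign 𝔤.S x).mul_self (edgeOf x α).1
  have h9 := (sgn_isSign 𝔤.S x).mul_self ((edgeOf x α).1 + uv (edgeOf x α).2)
  change tc = _ at h7
  rw [h7]
  linear_combination (-(𝔤.w (edgeOf x α)) * (sgn 𝔤.S x ((edgeOf x α).1 + uv (edgeOf x α).2)) ^ 2) * h8 -
    𝔤.w (edgeOf x α) * h9

/-- the kept potential of any geometry is the plane one at bulk points and vanishes elsewhere -/
theorem _root_.Crest.Agent.R165.q_form {R : ℕ} {k : Cons} (hk : ConsOK R k) {V : Finset Site → ℝ} (hV : PotOK R V) {c : ℝ × ℝ} (hc : -1 < c.2) {μ : ℝ}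
    {ν z : ℕ → ℝ} (h0 : ν 0 = c.1 ∧ z 0 = c.2)
    (hν : ∀ j x, ((gPl0 R k.Gam).st k.p c μ V j).q x = ν j • mX wPl x + z j • kX wPl x)
    {𝔤 : Geom} (hI : InitOK k.p R c 𝔤) (ht : 𝔤.Typ) (j : ℕ) (x : Site) :
    (𝔤.Bulk k.p j x → (𝔤.st k.p c μ V j).q x = ν j • mX 𝔤.w x + z j • kX 𝔤.w x) ∧
    (𝔤.st k.p c μ V (j + 1)).q x = if 𝔤.Bulk k.p j x then ν (j + 1) • mX 𝔤.w x + z (j + 1) • kX 𝔤.w x else 0 := by
  have h2 : ∀ j, 𝔤.Bulk k.p j x → (𝔤.st k.p c μ V (j + 1)).q x = ν (j + 1) • mX 𝔤.w x + z (j + 1) • kX 𝔤.w x :=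
    fun j hx => q_bulk hk hV hI μ ht hx (u := (ν (j + 1), z (j + 1))) (hν (j + 1) x)
  refine ⟨fun hx => ?_, ?_⟩
  · cases j with
    | zero =>
      have hl := l_pos hk.pok 0
      have h3 := Nat.mul_le_mul_right (k.p.l 0) hk.pok.2.2.2
      have h4 : ∀ e : Edge, supd e.1 x ≤ 1 → |𝔤.w e| = tc := fun e he => by
        rw [crit_near ht hx.2 (fun b hb => hx.1 b (Or.inl hb)) (e := e) (by simp only; omega), abs_mul,
          abs_of_pos tc_pos.1]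
        rcases eray_sign 𝔤.S e with h | h <;> simp [h]
      rw [h0.1, h0.2]
      exact s0_q_bulk hc k.p μ V (hI.crit _ hx.2).1 fun α =>
        ⟨(hI.crit (x + dv α, 0) (h4 _ (supd_dv x α).le)).1, h4 _ (B3.supd_edgeOf x α).1⟩
    | succ j =>
      exact h2 j ⟨fun b hb => (Nat.mul_le_mul_left _ (l_mono hk.pok j.le_succ)).trans (hx.1 b hb), hx.2⟩
  · split_ifs with hx
    exacts [h2 j hx, q_nonbulk hk.pok hI μ V hx]

theorem bdAx (p : Par) (𝔤 : Geom) (j : ℕ) : BdAx (𝔤.Bd p j) augE := bdAx_BdU _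

theorem q_SN (hk : ConsOK R k) (hV : PotOK R V) {B : ℝ} (hT : Tuned k R V c μ B) (hI : InitOK k.p R c 𝔤) {j : ℕ}
    (hG : GeoOK k.p k.K k.Γs 𝔤 j) (hΓ : 𝔤.Gam (j + 1) ≤ k.Gam (j + 1)) :
    geoZ.SN (𝔤.Bd k.p (j + 1)) (k.p.l (j + 1)) (𝔤.st k.p c μ V (j + 1)).q (9 * k.Λ * (B * vth ^ (j + 1))) := by
  obtain ⟨ν, z, -, -, h⟩ := hT
  obtain ⟨h1, h2⟩ := h (j + 1)
  have hB := bdAx k.p 𝔤 (j + 1)
  have hl : (1 : ℝ) ≤ k.p.l (j + 1) := by exact_mod_cast one_le_l hk _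
  have hΛ : 0 ≤ k.Λ := by linarith [hk.one.2.1]
  have hΓ0 : 0 ≤ 𝔤.Gam (j + 1) := by linarith [hG.gam.2.1, hk.one.1]
  set l : ℝ := ((k.p.l (j + 1) : ℕ) : ℝ) with hl'
  set b : ℝ := |ν (j + 1)| * (k.Λ * 𝔤.Gam (j + 1) ^ 2 / l) + |z (j + 1)| * (k.Λ * 𝔤.Gam (j + 1) ^ 2 / l ^ 2) with hb
  have b0 : 0 ≤ b := by positivity
  refine ⟨fun _ => b, fun x => ⟨b0, ?_⟩, fun y => ?_⟩
  · by_cases hx : 𝔤.Bulk k.p j x
    · rw [q_bulk hk hV hI μ hG.typ' hx (u := (ν (j + 1), z (j + 1))) (h1 x)]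
      obtain ⟨m1, m2⟩ := (hk.step 𝔤 j hG).mkn x hx
      exact hB.add (hB.smul _ m1) (hB.smul _ m2)
    · rw [q_nonbulk hk.pok hI μ V hx]
      exact hB.mono (hB.zero _) subset_rfl b0
  · rw [Finset.sum_const, geoZ_ball, card_box, nsmul_eq_mul]
    simp only [Nat.succ_ne_zero, if_false, pow_zero, mul_one] at h2
    have h3 : (((2 * k.p.l (j + 1) + 1) ^ 2 : ℕ) : ℝ) ≤ 9 * l ^ 2 := by
      push_cast; nlinarith
    have h4 : 9 * l ^ 2 * b = 9 * k.Λ * ((|ν (j + 1)| * l + |z (j + 1)|) * 𝔤.Gam (j + 1) ^ 2) := by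
      rw [hb]; field_simp
    refine (mul_le_mul_of_nonneg_right h3 b0).trans (h4.trans_le (mul_le_mul_of_nonneg_left (le_trans ?_ h2) (by positivity)))
    exact mul_le_mul_of_nonneg_left (pow_le_pow_left₀ hΓ0 hΓ 2) (by positivity)

theorem Kq_mem (hk : ConsOK R k) (hI : InitOK k.p R c 𝔤) (μ : ℝ) (V : Finset Site → ℝ) (j : ℕ) (Y : Finset Site) :
    Kq k.p 𝔤 c μ V j Y ∈ 𝔤.Lc k.p j Y :=
  have h := st_lcl hk.pok hk.l0.2 hI μ V j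
  Subalgebra.add_mem _ (h.K Y) (sgl_mem h.q Y)

theorem one_le_a (hk : ConsOK R k) : 1 ≤ k.a := by linarith [hk.one.2.1, hk.one.2.2.1]

theorem qm_SN (hk : ConsOK R k) (hI : InitOK k.p R c 𝔤) {j : ℕ} (hG : GeoOK k.p k.K k.Γs 𝔤 j) {α : ℝ}
    (h : geoZ.PN (𝔤.Bd k.p j) (k.p.l j) k.a (Kq k.p 𝔤 c μ V j) α) :
    geoZ.SN (𝔤.Bd k.p (j + 1)) (k.p.l (j + 1)) (𝔤.st k.p c μ V (j + 1)).qm
      (((2 * k.p.L + 3 : ℕ) : ℝ) ^ 2 * (k.Λ * α)) := by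
  have h1 := bd_small_sum geoZ (bdAx k.p 𝔤 (j + 1)) (one_le_a hk) (β := k.Λ) (by linarith [hk.one.2.1]) h
    (fun x Z => toEv (𝔤.mvG k.p j x) (Kq k.p 𝔤 c μ V j Z)) fun Z x c h1 h2 h3 => (hk.step 𝔤 j hG).mv h1 h2 h3
  rw [l_succ]
  convert h1.scale (one_le_l hk j) using 2 with x
  rw [(st_q_succ hk.pok hI μ V j x).2, geoZ_ball]
  exact Finset.sum_congr rfl fun Y _ => by split_ifs <;> rfl

theorem en_SN (hk : ConsOK R k) (hI : InitOK k.p R c 𝔤) {j : ℕ} (hG : GeoOK k.p k.K k.Γs 𝔤 j) {α : ℝ}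
    (h : geoZ.PN (𝔤.Bd k.p j) (k.p.l j) k.a (Kq k.p 𝔤 c μ V j) α) :
    geoZ.SN (fun _ F t => BdT (𝔤.h (j + 1)) F t) (k.p.l j) (𝔤.en k.p c μ V j) (k.Λ * α) := by
  obtain ⟨κ, hA⟩ := (hk.step 𝔤 j hG).ana
  have h1 := bd_small_sum geoZ (bdAx k.p 𝔤 (j + 1)) (one_le_a hk) (β := k.Λ) (by linarith [hk.one.2.1]) h
    (fun x Z => (𝔤.sp k.p j).loc x ((𝔤.sp k.p j).mu (Kq k.p 𝔤 c μ V j Z)))
    fun Z x c h1 h2 h3 => hA.h3 h1 h2 (Kq_mem hk hI μ V j Z) h3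
  have h2 := h1.map (Bd' := fun _ F t => BdT (𝔤.h (j + 1)) F t) (q' := 𝔤.en k.p c μ V j) zero_le_one fun x c hc => by
    rw [one_mul]
    refine bdT_cst (fun u hu => ?_) hc
    simp only [Set.mem_iUnion] at hu
    obtain ⟨y, -, hu | ⟨i, b, t, -, -, h1, h2⟩⟩ := hu
    · exact Or.inl fun i hi => (hu.1 i hi).imp fun a h => h.1
    · exact Or.inr ⟨i, b, t, h1, h2⟩
  rwa [one_mul] at h2

/-- the coefficient of `τ_i o_i` moved at the step `j` at the site `x` -/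
def dC (p : Par) (𝔤 : Geom) (c : ℝ × ℝ) (μ : ℝ) (V : Finset Site → ℝ) (j i : ℕ) (x : Site) : ℝ :=
  if (j : ℕ∞) < 𝔤.jN ∧ supd x (𝔤.y i).1 ≤ 3 * p.l j then 𝔤.obsC i (Fx (p.l j) (Kq p 𝔤 c μ V j) x : Gr Ix) else 0

theorem qm_eq {p : Par} (hp : p.OK) (hI : InitOK p R c 𝔤) (μ : ℝ) (V : Finset Site → ℝ) (j : ℕ) (x : Site) :
    (𝔤.st p c μ V (j + 1)).qm x = ∑ i ∈ Finset.range 𝔤.m, dC p 𝔤 c μ V j i x • tO 𝔤 i := by
  rw [(q_succ hp hI μ V j x).2, toEv_mvG]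
  refine Finset.sum_congr rfl fun i _ => ?_
  rw [dC]
  split_ifs <;> simp

theorem dC_mass (hk : ConsOK R k) {j : ℕ} (hG : GeoOK k.p k.K k.Γs 𝔤 j) {α : ℝ}
    (h : geoZ.PN (𝔤.Bd k.p j) (k.p.l j) k.a (Kq k.p 𝔤 c μ V j) α) {i : ℕ} (hi : i < 𝔤.m) (B : Finset Site) :
    ∑ x ∈ B, |dC k.p 𝔤 c μ V j i x| ≤ 81 * k.Λ * α * k.p.l j / (𝔤.Gam j ^ 2 * 𝔤.h j) := by
  have hΛ : 0 ≤ k.Λ := by linarith [hk.one.2.1]
  have hh := hG.wt.1
  have hα := h.nonneg 0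
  by_cases hj : (j : ℕ∞) < 𝔤.jN
  swap
  · rw [Finset.sum_eq_zero fun x _ => by simp [dC, hj]]
    positivity
  set β : ℝ := k.Λ * k.p.l j / (𝔤.Gam j ^ 2 * 𝔤.h j) with hβ
  have β0 : 0 ≤ β := by positivity
  have h1 := sum_small_le geoZ (one_le_a hk) β0 h
    (fun x Z => if supd x (𝔤.y i).1 ≤ 3 * k.p.l j then 𝔤.obsC i (Kq k.p 𝔤 c μ V j Z : Gr Ix) else 0)
    fun Z x c h1 h2 h3 => by
      split_ifs with h4
      · refine ((hk.step 𝔤 j hG).obsC i hi hj h1 h2 h4 h3).trans_eq ?_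
        rw [hβ]; ring
      · rw [abs_zero]; exact mul_nonneg β0 ((bdAx k.p 𝔤 j).nonneg h3)
  obtain ⟨C, hC, hc⟩ := geoZ.cover (𝔤.y i).1 (3 * k.p.l j) (k.p.l j) (one_le_l hk j)
  rw [Nat.mul_div_cancel _ (one_le_l hk j)] at hC
  have h2 := Geo.sum_cover (κ := fun _ => 1) (fun x => Finset.sum_nonneg fun Y _ => by
    split_ifs <;> positivity) h1 _ C (fun _ => 1) hc (fun _ _ _ _ => le_rfl) fun _ => zero_le_one
  simp only [one_mul, Finset.sum_const, nsmul_eq_mul, mul_one] at h2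
  have h3 : (C.card : ℝ) ≤ 81 := by exact_mod_cast hC
  calc _ = ∑ x ∈ B with supd x (𝔤.y i).1 ≤ 3 * k.p.l j, |dC k.p 𝔤 c μ V j i x| := by
        rw [Finset.sum_filter]
        refine Finset.sum_congr rfl fun x _ => ?_
        split_ifs with h4
        · rfl
        · simp [dC, h4]
    _ ≤ ∑ x ∈ geoZ.ball (𝔤.y i).1 (3 * k.p.l j), |dC k.p 𝔤 c μ V j i x| :=
        Finset.sum_le_sum_of_subset_of_nonneg (fun x hx => by
          rw [geoZ_ball, mem_box]; exact (Finset.mem_filter.1 hx).2) fun _ _ _ => abs_nonneg _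
    _ ≤ _ := by
        refine le_trans (Finset.sum_le_sum fun x hx => ?_) (h2.trans ?_)
        · rw [geoZ_ball, mem_box] at hx
          rw [dC, if_pos ⟨hj, hx⟩, Fx, geoZ_ball, AddSubmonoidClass.coe_finset_sum, map_sum]
          refine (Finset.abs_sum_le_sum_abs _ _).trans (Finset.sum_le_sum fun Y _ => ?_)
          split_ifs
          · rw [Subalgebra.coe_smul, map_smul, smul_eq_mul, abs_mul, abs_of_nonneg (by positivity)]
          · simp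
        · refine (mul_le_mul_of_nonneg_right h3 (by positivity)).trans_eq ?_
          rw [hβ]; ring

theorem obsC_qm {p : Par} (hp : p.OK) (hI : InitOK p R c 𝔤) (hN : 0 < 𝔤.jN) (μ : ℝ) (V : Finset Site → ℝ) (j : ℕ) {i : ℕ}
    (hi : i < 𝔤.m) (x : Site) : 𝔤.obsC i ((𝔤.st p c μ V (j + 1)).qm x : Al) = dC p 𝔤 c μ V j i x := by
  rw [qm_eq hp hI, AddSubmonoidClass.coe_finset_sum, map_sum]
  simp only [Subalgebra.coe_smul, map_smul, obsC_tO 𝔤 (hI.ener hN i hi).2.2, smul_eq_mul, mul_ite, mul_one, mul_zero]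
  rw [Finset.sum_ite_eq, if_pos (Finset.mem_range.2 hi)]

theorem cE_bd (hk : ConsOK R k) (hI : InitOK k.p R c 𝔤) {j : ℕ} (hG : GeoOK k.p k.K k.Γs 𝔤 j) {α : ℝ}
    (h : geoZ.PN (𝔤.Bd k.p j) (k.p.l j) k.a (Kq k.p 𝔤 c μ V j) α) {i : ℕ} (hi : i < 𝔤.m) (hj : (j : ℕ∞) < 𝔤.jN) :
    |𝔤.cE k.p c μ V (j + 2) i - 𝔤.cE k.p c μ V (j + 1) i| ≤ 81 * k.Λ * α * k.p.l j / (𝔤.Gam j ^ 2 * 𝔤.h j) := by
  rw [Geom.cE, Geom.cE, Finset.sum_range_succ _ (j + 1), add_sub_add_left_eq_sub, add_sub_cancel_left]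
  simp only [obsC_qm hk.pok hI (lt_of_le_of_lt zero_le hj) μ V j hi]
  exact (Finset.abs_sum_le_sum_abs _ _).trans (dC_mass hk hG h hi _)

end Crest.Agent.R165.D6
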