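import Crest.Agent.R165.D6.Fin

/-! # R165/D6 (owner helper58): the background of isolated observables is linear in the sources -/

set_option autoImplicit false
noncomputable section
open Classical

namespace Crest.Agent.R165.D6
open D5

variable {R : ℕ} {k : Cons} {V : Finset Site → ℝ} {𝔤 : Geom} {c : ℝ × ℝ} {μ : ℝ}

/-- `F` is a combination of the `t i`, carried by polymers near `y i`, with mass `≤ β` for each `i` -/
def Lin (𝔤 : Geom) (t : ℕ → Al) (ρ : ℕ) (β : ℝ) (F : Finset Site → Al) : Prop :=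
  ∃ b : ℕ → Finset Site → ℝ, (∀ Z, F Z = ∑ i ∈ Finset.range 𝔤.m, b i Z • t i) ∧
    (∀ i Z, b i Z ≠ 0 → Z.Nonempty ∧ Z ⊆ box (𝔤.y i).1 ρ) ∧ ∀ i < 𝔤.m, ∀ 𝒮 : Finset (Finset Site), ∑ Z ∈ 𝒮, |b i Z| ≤ β

section lin
variable {t : ℕ → Al} {ρ ρ' : ℕ} {β β' : ℝ} {F F' : Finset Site → Al}

theorem Lin.mono (h : Lin 𝔤 t ρ β F) (hρ : ρ ≤ ρ') (hβ : β ≤ β') : Lin 𝔤 t ρ' β' F := by
  obtain ⟨b, h1, h2, h3⟩ := h
  exact ⟨b, h1, fun i Z h => ⟨(h2 i Z h).1, (h2 i Z h).2.trans (box_mono _ hρ)⟩, fun i hi 𝒮 => (h3 i hi 𝒮).trans hβ⟩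

theorem Lin.zero : Lin 𝔤 t ρ 0 fun _ => 0 := ⟨fun _ _ => 0, by simp, by simp, by simp⟩

theorem Lin.add (h : Lin 𝔤 t ρ β F) (h' : Lin 𝔤 t ρ β' F') : Lin 𝔤 t ρ (β + β') fun Z => F Z + F' Z := by
  obtain ⟨b, h1, h2, h3⟩ := h
  obtain ⟨b', h1', h2', h3'⟩ := h'
  refine ⟨fun i Z => b i Z + b' i Z, fun Z => by simp only [h1, h1', add_smul, Finset.sum_add_distrib], fun i Z h => ?_,
    fun i hi 𝒮 => ?_⟩
  · by_cases h0 : b i Z = 0
    · exact h2' i Z fun h' => h (by simp [h0, h'])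
    · exact h2 i Z h0
  · refine (Finset.sum_le_sum fun Z _ => abs_add_le _ _).trans ?_
    rw [Finset.sum_add_distrib]
    exact add_le_add (h3 i hi 𝒮) (h3' i hi 𝒮)

theorem Lin.map (h : Lin 𝔤 t ρ β F) (T : Al →ₗ[ℝ] Al) {t' : ℕ → Al} (hT : ∀ i < 𝔤.m, T (t i) = t' i)
    (P : Finset Site → Prop) : Lin 𝔤 t' ρ β fun Z => if P Z then T (F Z) else 0 := by
  obtain ⟨b, h1, h2, h3⟩ := h
  refine ⟨fun i Z => if P Z then b i Z else 0, fun Z => ?_, fun i Z h => h2 i Z fun h0 => h (by simp [h0]),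
    fun i hi 𝒮 => le_trans (Finset.sum_le_sum fun Z _ => ?_) (h3 i hi 𝒮)⟩
  · beta_reduce
    split_ifs
    · rw [h1, map_sum]
      exact Finset.sum_congr rfl fun i hi => by rw [map_smul, hT i (Finset.mem_range.1 hi)]
    · simp
  · beta_reduce
    split_ifs <;> simp

theorem Lin.dvd (h : Lin 𝔤 t ρ β F) (ht : ∀ i, tau i ∣ t i)
    (hs : ∀ i < 𝔤.m, ∀ i' < 𝔤.m, i ≠ i' → 2 * ρ < supd (𝔤.y i).1 (𝔤.y i').1) {Z : Finset Site} (hZ : F Z ≠ 0) :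
    Z.Nonempty ∧ ∃ i ∈ {i | i < 𝔤.m}, Z ⊆ geoZ.ball (𝔤.y i).1 ρ ∧ tau i ∣ F Z := by
  obtain ⟨b, h1, h2, -⟩ := h
  rw [h1] at hZ ⊢
  obtain ⟨i, hi, h0⟩ := Finset.exists_ne_zero_of_sum_ne_zero hZ
  obtain ⟨⟨z, hz⟩, h3⟩ := h2 i Z (left_ne_zero_of_smul h0)
  refine ⟨⟨z, hz⟩, i, Finset.mem_range.1 hi, geoZ_ball ▸ h3, ?_⟩
  rw [Finset.sum_eq_single i (fun i' hi' hne => ?_) fun h => (h hi).elim]
  · rw [Algebra.smul_def]; exact (ht i).mul_left _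
  · suffices h : b i' Z = 0 by rw [h, zero_smul]
    by_contra h
    have a1 := mem_box.1 (h3 hz)
    have a2 := mem_box.1 ((h2 i' Z h).2 hz)
    have a3 := hs i' (Finset.mem_range.1 hi') i (Finset.mem_range.1 hi) hne
    have a4 := supd_triangle (𝔤.y i').1 z (𝔤.y i).1
    rw [supd_comm _ z] at a4
    omega

theorem Lin.bd {Bd : Finset Site → Al → ℝ → Prop} (hB : BdAx Bd augE) (h : Lin 𝔤 t ρ β F) {w a : ℝ} (hw : 0 ≤ w) (ha : 1 ≤ a)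
    {l : ℕ} (hl : ρ ≤ l) (ht : ∀ i < 𝔤.m, ∀ x, supd x (𝔤.y i).1 ≤ ρ → Bd {x} (t i) w) :
    ∃ b : Finset Site → ℝ, (∀ Z, 0 ≤ b Z ∧ Bd Z (F Z) (b Z)) ∧ ∀ (𝒮 : Finset (Finset Site)) (I : Finset ℕ),
      (∀ i < 𝔤.m, ∀ Z ∈ 𝒮, Z.Nonempty → Z ⊆ box (𝔤.y i).1 ρ → i ∈ I) → 0 ≤ β →
      ∑ Z ∈ 𝒮, a ^ geoZ.cov l Z * b Z ≤ I.card * (a * w * β) := by
  obtain ⟨b, h1, h2, h3⟩ := h
  refine ⟨fun Z => ∑ i ∈ Finset.range 𝔤.m, |b i Z| * w, fun Z => ⟨by positivity, ?_⟩, fun 𝒮 I hI hβ => ?_⟩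
  · rw [h1]
    refine hB.sum _ fun i hi => ?_
    by_cases h0 : b i Z = 0
    · rw [h0, zero_smul, abs_zero, zero_mul]; exact hB.zero Z
    · obtain ⟨⟨z, hz⟩, h4⟩ := h2 i Z h0
      exact hB.mono (hB.smul _ (ht i (Finset.mem_range.1 hi) z (mem_box.1 (h4 hz)))) (by simpa using hz) le_rfl
  · calc _ ≤ ∑ Z ∈ 𝒮, ∑ i ∈ Finset.range 𝔤.m, if i ∈ I then a * w * |b i Z| else 0 := by
          refine Finset.sum_le_sum fun Z hZ => ?_
          rw [Finset.mul_sum]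
          refine Finset.sum_le_sum fun i hi => ?_
          by_cases h0 : b i Z = 0
          · simp [h0]
          · obtain ⟨h4, h5⟩ := h2 i Z h0
            have h6 : geoZ.cov l Z ≤ 1 := (geoZ.cov_le (C := {(𝔤.y i).1}) fun z hz => ⟨_, Finset.mem_singleton_self _, by
              rw [geoZ_d, supd_comm]; exact (mem_box.1 (h5 hz)).trans hl⟩).trans (by simp)
            rw [if_pos (hI i (Finset.mem_range.1 hi) Z hZ h4 h5)]
            have h7 : a ^ geoZ.cov l Z ≤ a := (pow_le_pow_right₀ ha h6).trans_eq (pow_one a)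
            nlinarith [mul_le_mul_of_nonneg_right h7 (show 0 ≤ |b i Z| * w by positivity)]
      _ ≤ ∑ i ∈ Finset.range 𝔤.m, if i ∈ I then a * w * β else 0 := by
          rw [Finset.sum_comm]
          refine Finset.sum_le_sum fun i hi => ?_
          split_ifs
          · rw [← Finset.mul_sum]
            exact mul_le_mul_of_nonneg_left (h3 i (Finset.mem_range.1 hi) 𝒮) (by positivity)
          · simp
      _ ≤ _ := by
          rw [← Finset.sum_filter, Finset.sum_const, nsmul_eq_mul]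
          refine mul_le_mul_of_nonneg_right ?_ (by positivity)
          exact_mod_cast Finset.card_le_card fun i hi => (Finset.mem_filter.1 hi).2

theorem Lin.pn {Bd : Finset Site → Al → ℝ → Prop} (hB : BdAx Bd augE) (h : Lin 𝔤 t ρ β F) {w a : ℝ} (hw : 0 ≤ w) (ha : 1 ≤ a)
    {l : ℕ} (hl : ρ ≤ l) (ht : ∀ i < 𝔤.m, ∀ x, supd x (𝔤.y i).1 ≤ ρ → Bd {x} (t i) w) (hβ : 0 ≤ β)
    (hs : ∀ i < 𝔤.m, ∀ i' < 𝔤.m, i ≠ i' → 4 * l < supd (𝔤.y i).1 (𝔤.y i').1) : geoZ.PN Bd l a F (a * w * β) := by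
  obtain ⟨b, h1, h2⟩ := h.bd hB hw ha hl ht
  refine ⟨b, h1, fun y 𝒮 h𝒮 => (h2 𝒮 ((Finset.range 𝔤.m).filter fun i => supd y (𝔤.y i).1 ≤ 2 * l)
    (fun i hi Z hZ _ h3 => ?_) hβ).trans (mul_le_of_le_one_left (by positivity) ?_)⟩
  · obtain ⟨z, hz, h4⟩ := h𝒮 Z hZ
    have h5 := mem_box.1 (h3 hz)
    have h6 := supd_triangle y z (𝔤.y i).1
    rw [geoZ_d] at h4
    exact Finset.mem_filter.2 ⟨Finset.mem_range.2 hi, by omega⟩
  · refine Nat.cast_le_one.2 (Finset.card_le_one.2 fun i hi i' hi' => by_contra fun hne => ?_)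
    rw [Finset.mem_filter, Finset.mem_range] at hi hi'
    have h3 := hs i hi.1 i' hi'.1 hne
    have h4 := supd_triangle (𝔤.y i).1 y (𝔤.y i').1
    rw [supd_comm _ y] at h4
    omega

end lin

theorem sum_sgl_le (d : Site → ℝ) (𝒮 : Finset (Finset Site)) :
    ∑ Z ∈ 𝒮, |sgl d Z| ≤ ∑ x ∈ 𝒮.biUnion id, |d x| := by
  calc _ ≤ ∑ Z ∈ 𝒮, ∑ x ∈ 𝒮.biUnion id, if Z = {x} then |d x| else 0 := by
        refine Finset.sum_le_sum fun Z hZ => ?_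
        rcases sgl_cases Z with ⟨x, rfl⟩ | h
        · rw [sgl_single]
          refine le_trans (le_of_eq (if_pos rfl).symm) (Finset.single_le_sum
            (f := fun y => if ({x} : Finset Site) = {y} then |d y| else 0) (fun _ _ => by positivity)
            (Finset.mem_biUnion.2 ⟨_, hZ, Finset.mem_singleton_self x⟩))
        · rw [h, abs_zero]; positivity
    _ ≤ _ := by
        rw [Finset.sum_comm]
        refine Finset.sum_le_sum fun x _ => ?_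
        rw [Finset.sum_ite_eq']
        split_ifs <;> simp

theorem lin_qm (hk : ConsOK R k) (hI : InitOK k.p R c 𝔤) {j : ℕ} (hG : GeoOK k.p k.K k.Γs 𝔤 j) {α : ℝ}
    (h : geoZ.PN (𝔤.Bd k.p j) (k.p.l j) k.a (Kq k.p 𝔤 c μ V j) α) :
    Lin 𝔤 (tO 𝔤) (3 * k.p.l j) (81 * k.Λ * α * k.p.l j / (𝔤.Gam j ^ 2 * 𝔤.h j)) (sgl (𝔤.st k.p c μ V (j + 1)).qm) := by
  refine ⟨fun i => sgl (dC k.p 𝔤 c μ V j i), fun Z => ?_, fun i Z h => ?_,
    fun i hi 𝒮 => (sum_sgl_le _ _).trans (dC_mass hk hG h hi _)⟩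
  · rcases sgl_cases Z with ⟨x, rfl⟩ | h
    · simp only [sgl_single, qm_eq hk.pok hI]
    · simp only [h, zero_smul, Finset.sum_const_zero]
  · rcases sgl_cases Z with ⟨x, rfl⟩ | h'
    · beta_reduce at h
      rw [sgl_single, dC] at h
      exact ⟨by simp, by simpa using mem_box.2 (by_contra fun h' => h (if_neg fun h'' => h' h''.2))⟩
    · exact (h (h' _ _)).elim

theorem tau_dvd (𝔤 : Geom) (i : ℕ) : tau i ∣ tO 𝔤 i := ⟨_, rfl⟩

theorem lin_step {p : Par} (hp : p.OK) {K : ℕ} (hK : 20 ≤ K) {Γs : ℝ} {j : ℕ} (hG : GeoOK p K Γs 𝔤 j)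
    (hj : (j : ℕ∞) < 𝔤.jN) {t : ℕ → Al} (ht : ∀ i, tau i ∣ t i) (hmu : ∀ i < 𝔤.m, (𝔤.sp p j).mu (t i) = tO 𝔤 i)
    {ρ : ℕ} (hρ : ρ ≤ 3 * p.l j) {β δ : ℝ} (hM : Lin 𝔤 t ρ β (𝔤.st p c μ V j).M)
    (hq : Lin 𝔤 t ρ δ (sgl (𝔤.st p c μ V j).qm)) : Lin 𝔤 (tO 𝔤) ρ (δ + β) (𝔤.st p c μ V (j + 1)).M := by
  have hl := l_lt hp j.lt_succ_self
  have hl' := l_pos hp j
  have hs : ∀ i < 𝔤.m, ∀ i' < 𝔤.m, i ≠ i' → 2 * ρ + p.l (j + 1) < supd (𝔤.y i).1 (𝔤.y i').1 := fun i hi i' hi' hne => by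
    have h1 := (hG.sep hj).2.2 i hi i' hi' hne
    have h2 := Nat.mul_le_mul_right (p.l (j + 1)) hK
    simp only [Nat.succ_eq_add_one] at hl
    omega
  have hs' : ∀ i < 𝔤.m, ∀ i' < 𝔤.m, i ≠ i' → 2 * ρ < supd (𝔤.y i).1 (𝔤.y i').1 := fun i hi i' hi' hne =>
    lt_of_le_of_lt (Nat.le_add_right _ _) (hs i hi i' hi' hne)
  have h1 : (fun x => exA augE ((𝔤.st p c μ V j).qm x) - 1) = (𝔤.st p c μ V j).qm := funext fun x => exA_of_sq (by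
    by_cases h0 : sgl (𝔤.st p c μ V j).qm {x} = 0
    · rw [sgl_single] at h0; rw [h0, mul_zero]
    · obtain ⟨-, i, -, -, w, hw⟩ := hq.dvd ht hs' h0
      rw [sgl_single] at hw
      rw [hw, mul_mul_mul_comm, tau_sq, zero_mul])
  convert (hq.add hM).map (𝔤.sp p j).mu hmu (geoZ.Conn (p.l (j + 1))) using 1
  funext Z
  change (𝔤.sp p j).mu (geoZ.grp (p.l j) (p.l (j + 1)) (sgl fun x => exA augE ((𝔤.st p c μ V j).qm x) - 1)
    (𝔤.st p c μ V j).M Z) = _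
  rw [h1]
  split_ifs with hZ
  · rw [geoZ.grp_lin' _ (fun i => (𝔤.y i).1) tau {i | i < 𝔤.m} (fun i _ => tau_sq i)
      (fun i hi i' hi' hne => geoZ_d ▸ hs i hi i' hi' hne) (fun u hu => ?_) hZ]
    cases u with
    | inl Y => exact hq.dvd ht hs' hu
    | inr Y => exact hM.dvd ht hs' hu
  · rw [geoZ.grp_of_not_conn _ _ _ hZ, map_zero]

theorem lin_zero {p : Par} (hp : p.OK) (hI : InitOK p R c 𝔤) (hN : 0 < 𝔤.jN)
    (hs : ∀ k < 𝔤.m, ∀ k' < 𝔤.m, k ≠ k' → 4 * p.l0 ≤ supd (𝔤.y k).1 (𝔤.y k').1) :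
    Lin 𝔤 (fun i => tO 𝔤 i - (tc * gPl (he0 (𝔤.y i)) (he1 (𝔤.y i))) • tau i) 1 |-2 * (1 + c.2) * tOf c / tc|
      (𝔤.M0 p c) := by
  refine ⟨fun i Z => if Z = enS (𝔤.y i) then -2 * (1 + c.2) * tOf c / tc else 0, fun Z => ?_, fun i Z h => ?_,
    fun i _ 𝒮 => ?_⟩
  · rw [M0_eq hp hI hN hs]
    exact Finset.sum_congr rfl fun i _ => by beta_reduce; split_ifs <;> simp
  · obtain rfl : Z = enS (𝔤.y i) := by_contra fun h' => h (if_neg h')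
    refine ⟨by simp [enS], fun z hz => mem_box.2 ?_⟩
    simp only [enS, Finset.mem_insert, Finset.mem_singleton] at hz
    rcases hz with rfl | rfl
    · rw [supd_self]; exact zero_le_one
    · exact (B3.supd_uv _ _).le
  · simp only [apply_ite abs, abs_zero]
    rw [Finset.sum_ite_eq']
    split_ifs
    exacts [le_rfl, abs_nonneg _]

end Crest.Agent.R165.D6
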