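import Crest.Agent.R165.D6.Agree

/-! # R165/D6 (owner helper58): algebra of the sources and of the kept local forms -/

set_option autoImplicit false
noncomputable section
open Classical

namespace Crest.Agent.R165.D6
open D5

/-- `τ_k o_k` -/
def tO (𝔤 : Geom) (k : ℕ) : Al := tau k * 𝔤.oK k

/-- the remainder together with the kept potential -/
def Kq (p : Par) (𝔤 : Geom) (c : ℝ × ℝ) (μ : ℝ) (V : Finset Site → ℝ) (j : ℕ) (Y : Finset Site) : Al :=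
  (𝔤.st p c μ V j).K Y + sgl (𝔤.st p c μ V j).q Y

/-! ### task Src-a -/

/-- `toEv_of_eq`, `LinearMap.sum_apply` -/
theorem toEv_mvG (p : Par) (𝔤 : Geom) (j : ℕ) (x : Site) (F : Al) : toEv (𝔤.mvG p j x) F =
    ∑ k ∈ Finset.range 𝔤.m, if (j : ℕ∞) < 𝔤.jN ∧ supd x (𝔤.y k).1 ≤ 3 * p.l j then 𝔤.obsC k (F : Gr Ix) • tO 𝔤 k else 0 := by
  refine toEv_of_eq ?_
  rw [Geom.mvG, LinearMap.sum_apply, AddSubmonoidClass.coe_finset_sum]
  refine Finset.sum_congr rfl fun k _ => ?_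
  split_ifs <;> rfl

/-- `ev2 f f' (θ_a θ_b) = f a f' b - f' a f b` (`deg2` fixes `ι u * ι v`, `gauss_th_th`); `cSol_0..3` -/
theorem nu0_eM (e : Edge) : nu0 (eM Sum.inl e : Al) = -1 := by
  change gauss _ (deg2 (th (Sum.inl (he0 e) : Ix) * th (Sum.inl (he1 e)))) = -1
  rw [th, th, D1.deg2_iota_iota, ← th, ← th, gauss_th_th fun i j => by ring]
  obtain ⟨x, j⟩ := e
  fin_cases j
  · change cSol 1 (x, 0) * cSol Complex.I (x + uv 0, 2) - cSol Complex.I (x, 0) * cSol 1 (x + uv 0, 2) = -1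
    simp [cSol_0, cSol_2]
  · change cSol 1 (x, 1) * cSol Complex.I (x + uv 1, 3) - cSol Complex.I (x, 1) * cSol 1 (x + uv 1, 3) = -1
    simp only [cSol_1, cSol_3, Complex.one_re, Complex.one_im, Complex.I_re, Complex.I_im]
    linear_combination (-1 / 2) * b1_r

theorem srca_ctr (𝔤 : Geom) (k : ℕ) (q : ℕ × Bool) : ctr (Finsupp.lapply (Sum.inr q : Ix)) (𝔤.oK k : Gr Ix) = 0 := by
  change ctr _ (𝔤.w (𝔤.y k) • (th (Sum.inl (he0 (𝔤.y k)) : Ix) * th (Sum.inl (he1 (𝔤.y k))))) = 0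
  rw [map_smul, th, th, ctr_iota_mul, CliffordAlgebra.contractLeft_ι]
  simp

/-- `ctr_iota_mul` -/
theorem dTau_tO (𝔤 : Geom) (k k' : ℕ) : dTau k (tO 𝔤 k' : Gr Ix) = if k = k' then (𝔤.oK k : Gr Ix) else 0 := by
  change ctr (Finsupp.lapply (Sum.inr (k, true) : Ix)) (ctr (Finsupp.lapply (Sum.inr (k, false) : Ix))
    (th (Sum.inr (k', false) : Ix) * th (Sum.inr (k', true)) * (𝔤.oK k' : Gr Ix))) = _
  rw [mul_assoc, th, th, ctr_iota_mul, ctr_iota_mul, srca_ctr, map_sub, map_smul, ctr_iota_mul, srca_ctr]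
  split_ifs with h
  · subst h
    simp
  · simp [h]

theorem gauge_th2 (σ : Site → ℝ) (a b : HE) :
    gmap (gaugeV σ) (th2 (Sum.inl a) (Sum.inl b) : Al) = (σ a.1 * σ b.1) • (th2 (Sum.inl a) (Sum.inl b) : Al) := by
  change gmap (gaugeV σ) (ExteriorAlgebra.ι ℝ (dl a) * ExteriorAlgebra.ι ℝ (dl b)) =
    (σ a.1 * σ b.1) • (ExteriorAlgebra.ι ℝ (dl a) * ExteriorAlgebra.ι ℝ (dl b))
  rw [map_mul, gmap_iota, gmap_iota, D2.gaugeV_dl, D2.gaugeV_dl, map_smul, map_smul, smul_mul_smul_comm]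

/-- `dTau_tO`, `gauge_th2`, `sgn_self`, `sgn_uv`, `eray_sq`, `nu0_eM` -/
theorem obsC_tO (𝔤 : Geom) {k : ℕ} (hw : 𝔤.w (𝔤.y k) = tc * eray 𝔤.S (𝔤.y k)) (k' : ℕ) :
    𝔤.obsC k (tO 𝔤 k' : Gr Ix) = if k = k' then 1 else 0 := by
  change (-1 / tc : ℝ) • nu0 (gmap (gaugeV (sgn 𝔤.S (𝔤.y k).1)) (dTau k (tO 𝔤 k' : Gr Ix))) = _
  rw [dTau_tO]
  split_ifs
  · change (-1 / tc : ℝ) • nu0 (gmap (gaugeV (sgn 𝔤.S (𝔤.y k).1))
      (𝔤.w (𝔤.y k) • ((th2 (Sum.inl (he0 (𝔤.y k))) (Sum.inl (he1 (𝔤.y k))) : Al) : Gr Ix))) = _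
    rw [map_smul, gauge_th2, map_smul]
    change (-1 / tc : ℝ) • 𝔤.w (𝔤.y k) • nu0 ((sgn 𝔤.S (𝔤.y k).1 (𝔤.y k).1 * sgn 𝔤.S (𝔤.y k).1 ((𝔤.y k).1 + uv (𝔤.y k).2)) •
      ((eM Sum.inl (𝔤.y k) : Al) : Gr Ix)) = _
    rw [map_smul, nu0_eM, sgn_self, sgn_uv, hw]
    have := tc_pos.1.ne'
    simp only [smul_eq_mul]
    field_simp
    exact eray_sq _ _
  · rw [map_zero, map_zero, smul_zero]

theorem srca_cst (k : ℕ) : cstA (tau k : Al) = tau k := by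
  apply Subtype.ext
  change gmap _ (ExteriorAlgebra.ι ℝ (dz k false) * ExteriorAlgebra.ι ℝ (dz k true)) =
    ExteriorAlgebra.ι ℝ (dz k false) * ExteriorAlgebra.ι ℝ (dz k true)
  rw [map_mul, gmap_iota, gmap_iota]
  simp [vmap, dz]

theorem srca_mu (C : Ix → Ix → ℝ) (a b : Ix) : muE C (th2 a b) = th2 a b + algebraMap ℝ Al ((C a b - C b a) / 2) := by
  apply Subtype.ext
  have h2 : mu C (th b) = th b := by
    have := mu_iota_mul C (Finsupp.single b 1) 1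
    rw [mul_one, mu_one, mul_one] at this
    rw [th, this]
    exact add_eq_left.2 (ctr_one _)
  change mu C (th a * th b) = th a * th b + algebraMap ℝ (Gr Ix) ((C a b - C b a) / 2)
  rw [th, mu_iota_mul, h2, th, CliffordAlgebra.contractLeft_ι, bil_single]

/-- `muE_cst_mul` with `cstA (tau k) = tau k`; `mu C (θ_a θ_b) = θ_a θ_b + (C a b - C b a) / 2` -/
theorem muE_tau_eM (g : HE → HE → ℝ) (k : ℕ) (e : Edge) : muE (extG g) (tau k * eM Sum.inl e : Al) =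
    tau k * eM Sum.inl e + ((g (he0 e) (he1 e) - g (he1 e) (he0 e)) / 2) • tau k := by
  have h := muE_cst_mul g (tau k) (eM Sum.inl e)
  rw [srca_cst] at h
  rw [h, eM, srca_mu, mul_add, Algebra.smul_def, mul_comm (algebraMap ℝ Al _)]
  rfl

theorem muE_tau (g : HE → HE → ℝ) (k : ℕ) : muE (extG g) (tau k : Al) = tau k := by
  rw [tau, srca_mu]
  simp [extG]

/-! ### task Src-b -/

/-- `gmap T (gmap (trV 0 σ none) F) = gmap T (gmap (gaugeV σ) F)` whenever `T` kills the sources (`gmap_comp`, `Finsupp.lhom_ext'`);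
`P0 x`, `P1 x` do (`extF f (inr _) = 0`).  For `ev2`: `deg2_gmap`, `gmap_mu` (`S = univ`) with the map that kills the sources. -/
theorem loc2_trA (x : Site) (σ : Site → ℝ) (F : Al) :
    loc2 x (trA 0 σ (fun _ => none) F : Al) = loc2 x (gmap (gaugeV σ) (F : Gr Ix)) := by
  rw [← D4.loc2_sgn x (s := 1) (one_mul 1) (D4.isSrc_rhoB fun _ => none) (gmap (gaugeV σ) (F : Gr Ix)), D4.gaugeV_eq,
    D4.sV_comp', trA, D4.coe_gmapE, D4.trV_eq]
  simp only [mul_one]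
  congr 4
  funext i
  simp [D4.shH]

/-- `gauge_th2`; `σ x * σ x = 1` -/
theorem gauge_qq {σ : Site → ℝ} (hσ : IsSign σ) {w : Edge → ℝ} {x : Site}
    (hw : ∀ α, w (edgeOf x α) = σ (edgeOf x α).1 * σ ((edgeOf x α).1 + uv (edgeOf x α).2) * tc) (u : ℝ × ℝ) :
    gmap (gaugeV σ) (qq u x : Al) = (u.1 • mX w x + u.2 • kX w x : Al) := by
  have hE : ∀ e : Edge, gmapE (gaugeV σ) (eM Sum.inl e : Al) = (σ e.1 * σ (e.1 + uv e.2)) • eM Sum.inl e := fun e =>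
    D4.sV_th2 _ _ _ _ _
  have hA : gmapE (gaugeV σ) (a0M Sum.inl x : Al) = a0M Sum.inl x := by
    simp only [a0M, map_sum]
    refine Finset.sum_congr rfl fun α _ => Finset.sum_congr rfl fun β _ => ?_
    split_ifs
    · exact (D4.sV_th2 _ _ _ _ _).trans (by rw [hσ.mul_self, one_smul])
    · exact map_zero _
  rw [← D4.coe_gmapE]
  congr 1
  simp only [qq, mX, kX, map_add, map_smul, map_sum, hE, hA, smul_smul, hw, wPl]
  congr 3
  · funext α; congr 1; ring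
  · congr 1; funext α; congr 1; ring

/-- a polymer of the initial background contains the support of an observable (`Geo.grp_ne_zero`, `hat x E 0 = 0`) -/
theorem M0_ne_zero {p : Par} {𝔤 : Geom} {c : ℝ × ℝ} {Z : Finset Site} (h : 𝔤.M0 p c Z ≠ 0) : ∃ k < 𝔤.m, 𝔤.oS k ⊆ Z := by

  obtain ⟨Y, hY, h1⟩ := geoZ.grp_ne_zero (P := 𝔤.actO) (K := fun _ => 0) (r := p.l0) (r' := p.l0) (Z := Z) fun h0 =>
    h (by rw [Geom.M0, h0, D4.hat_zero])
  by_contra hc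
  exact (h1.resolve_right fun h2 => h2 rfl) (D4.actO_eq_zero 𝔤 fun k hk e => hc ⟨k, hk, e ▸ hY⟩)

theorem srcc_box (e : Edge) : enS e ⊆ box e.1 1 := by
  obtain ⟨⟨a, b⟩, j⟩ := e
  intro z hz
  rw [enS, Finset.mem_insert, Finset.mem_singleton] at hz
  rw [mem_box']
  rcases hz with rfl | rfl
  · simp
  · fin_cases j <;> simp [uv] <;> omega

theorem srcc_edges (e : Edge) : edgesIn (enS e) = {e} := by
  obtain ⟨⟨a, b⟩, j⟩ := e
  ext ⟨⟨a', b'⟩, j'⟩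
  rw [D4.mem_edgesIn, enS]
  fin_cases j <;> fin_cases j' <;> simp [uv, Prod.ext_iff] <;> omega

/-- the initial background of isolated energy observables: `Geo.grp_lin'` in the ring `Cfg → Al` (`t k = fun _ => tau k`, `ρ = 1`),
`edgesIn (enS e) = {e}`, `BA.hat_insert`, `BA.hat_empty`; `wT t e = t / tc * w e` -/
theorem M0_eq {p : Par} (hp : p.OK) {R : ℕ} {𝔤 : Geom} {c : ℝ × ℝ} (hI : InitOK p R c 𝔤) (hN : 0 < 𝔤.jN)
    (hs : ∀ k < 𝔤.m, ∀ k' < 𝔤.m, k ≠ k' → 4 * p.l0 ≤ supd (𝔤.y k).1 (𝔤.y k').1) (Z : Finset Site) :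
    𝔤.M0 p c Z = ∑ k ∈ Finset.range 𝔤.m, if Z = enS (𝔤.y k) then (-2 * (1 + c.2) * tOf c / tc) •
      (tO 𝔤 k - (tc * gPl (he0 (𝔤.y k)) (he1 (𝔤.y k))) • tau k) else 0 := by

  have hl : 800 ≤ p.l0 := Nat.le_of_dvd hp.2.2.1 hp.2.1
  have ho : ∀ k < 𝔤.m, 𝔤.oS k = enS (𝔤.y k) := fun k hk => (hI.ener hN k hk).2.1
  have hu : ∀ k < 𝔤.m, ∀ k' < 𝔤.m, enS (𝔤.y k') = enS (𝔤.y k) → k' = k := fun k hk k' hk' e => by
    by_contra hne
    have h1 := hs k hk k' hk' (Ne.symm hne)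
    have h2 := srcc_box (𝔤.y k) (e ▸ Finset.mem_insert_self _ _ : (𝔤.y k').1 ∈ enS (𝔤.y k))
    rw [mem_box, supd_comm] at h2
    omega
  have ha : ∀ k < 𝔤.m, 𝔤.actO (enS (𝔤.y k)) = fun n => enO c (𝔤.y k) n • tau k := fun k hk => by
    have : (Finset.range 𝔤.m).filter (fun k' => 𝔤.oS k' = enS (𝔤.y k)) = {k} := by
      ext k'
      rw [Finset.mem_filter, Finset.mem_range, Finset.mem_singleton]
      exact ⟨fun h => hu k hk k' h.1 (ho k' h.1 ▸ h.2), fun h => by rw [h]; exact ⟨hk, ho k hk⟩⟩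
    funext n
    rw [Geom.actO, this, Finset.prod_singleton, (hI.ener hN k hk).1, add_sub_cancel_left]
  have hg : geoZ.grp p.l0 p.l0 𝔤.actO (fun _ => 0) Z = 𝔤.actO Z := by
    by_cases hZ : geoZ.Conn p.l0 Z
    · rw [geoZ.grp_lin' p.l0 (ρ := 1) (fun k => (𝔤.y k).1) (fun k (_ : Cfg) => (tau k : Al)) {k | k < 𝔤.m}
        (fun k _ => funext fun _ => tau_sq k) (fun k hk k' hk' hne => ?_) (fun u hu => ?_) hZ, add_zero]
      · have := hs k hk k' hk' hne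
        rw [geoZ_d]
        omega
      · rcases u with Y | Y
        · obtain ⟨k, hk, rfl⟩ : ∃ k < 𝔤.m, enS (𝔤.y k) = Y := by
            by_contra hc
            exact hu (D4.actO_eq_zero 𝔤 fun k hk e => hc ⟨k, hk, ho k hk ▸ e⟩)
          refine ⟨Finset.insert_nonempty _ _, k, hk, by rw [geoZ_ball]; exact srcc_box _, ?_⟩
          rw [Sum.elim_inl, ha k hk]
          exact ⟨fun n => algebraMap ℝ Al (enO c (𝔤.y k) n), funext fun n => by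
            rw [Pi.mul_apply, mul_comm, ← Algebra.smul_def]⟩
        · exact absurd rfl hu
    · rw [geoZ.grp_of_not_conn _ _ _ hZ, D4.actO_eq_zero 𝔤 (Y := Z) fun k hk e => hZ (e ▸ (hI.obs k hk).1)]
  rw [Geom.M0, hg]
  by_cases hZ : ∃ k < 𝔤.m, enS (𝔤.y k) = Z
  · obtain ⟨k, hk, rfl⟩ := hZ
    rw [Finset.sum_eq_single_of_mem k (Finset.mem_range.2 hk) fun k' hk' hne =>
      if_neg fun e => hne (hu k hk k' (Finset.mem_range.1 hk') e.symm), if_pos rfl, ha k hk, srcc_edges,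
      ← insert_empty_eq, BA.hat_insert _ (Finset.notMem_empty _), BA.hat_empty, BA.hat_empty]
    have h0 : 0 < tc := by
      rw [tc, sub_pos]
      exact Real.lt_sqrt_of_sq_lt (by norm_num)
    have hw : |𝔤.w (𝔤.y k)| = tc := by
      rw [(hI.ener hN k hk).2.2, abs_mul, abs_of_pos h0, eray]
      split_ifs <;> simp
    simp only [enO, ind, Finset.notMem_empty, decide_false, Function.update_self, Bool.false_eq_true, if_false, if_true,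
      Geom.xE, Geom.wT, hw, tO, Geom.oK, mul_smul_comm, smul_mul_assoc, ← sub_smul, mul_comm (eM Sum.inl (𝔤.y k) : Al),
      smul_sub, smul_smul]
    rw [sub_eq_add_neg (_ • _ : Al), add_comm, ← neg_smul]
    congr 2 <;> field_simp <;> ring
  · rw [D4.actO_eq_zero 𝔤 fun k hk e => hZ ⟨k, hk, ho k hk ▸ e⟩, D4.hat_zero, Finset.sum_eq_zero fun k hk =>
      if_neg fun e => hZ ⟨k, Finset.mem_range.1 hk, e.symm⟩]

/-- `muE_tau_eM`, `gle_obs` -/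
theorem mu_tO {p : Par} (hp : p.OK) {K : ℕ} (hK : 20 ≤ K) {Γs : ℝ} {𝔤 : Geom} {j : ℕ} (hG : GeoOK p K Γs 𝔤 j)
    (hj : (j : ℕ∞) < 𝔤.jN) (h1 : 1 ≤ j) {k : ℕ} (hk : k < 𝔤.m) : (𝔤.sp p j).mu (tO 𝔤 k) = tO 𝔤 k := by
  obtain ⟨a1, a2⟩ := gle_obs hp hK hG hj hk h1 j.le_succ
  obtain ⟨b1, b2⟩ := gle_obs hp hK hG hj hk (Nat.le_add_left 1 j) le_rfl
  change muE (extG (𝔤.gle p (j + 1) - 𝔤.gle p j)) _ = _
  rw [tO, Geom.oK, mul_smul_comm, map_smul, muE_tau_eM]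
  simp only [Pi.sub_apply, a1, a2, b1, b2, sub_self, zero_div, zero_smul, add_zero]

/-- `muE_tau_eM`, `muE_tau`, `gle_obs`, `gle_zero`, `eray_sq` -/
theorem mu_tO_zero {p : Par} (hp : p.OK) {K : ℕ} (hK : 20 ≤ K) {Γs : ℝ} {𝔤 : Geom} (hG : GeoOK p K Γs 𝔤 0)
    (hj : 0 < 𝔤.jN) {k : ℕ} (hk : k < 𝔤.m) (hw : 𝔤.w (𝔤.y k) = tc * eray 𝔤.S (𝔤.y k)) :
    (𝔤.sp p 0).mu (tO 𝔤 k - (tc * gPl (he0 (𝔤.y k)) (he1 (𝔤.y k))) • tau k) = tO 𝔤 k := by
  obtain ⟨b1, b2⟩ := gle_obs hp hK hG (by exact_mod_cast hj) hk (i := 0 + 1) le_rfl le_rfl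
  change muE (extG (𝔤.gle p (0 + 1) - 𝔤.gle p 0)) _ = _
  rw [gle_zero, sub_zero, tO, Geom.oK, mul_smul_comm, map_sub, map_smul, map_smul, muE_tau_eM, muE_tau, b1, b2, smul_add,
    smul_smul, add_sub_assoc, ← sub_smul, add_eq_left, hw]
  convert zero_smul ℝ (tau k : Al)
  linear_combination (tc * gPl (he0 (𝔤.y k)) (he1 (𝔤.y k))) * eray_sq 𝔤.S (𝔤.y k)

/-- `th_mem_supA`; `flipS` fixes `tau k` and `eM` (`gmap_iota`) -/
theorem tO_mem (p : Par) (𝔤 : Geom) (j k : ℕ) :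
    tO 𝔤 k ∈ 𝔤.Lc p j {(𝔤.y k).1} ∧ (tau k : Al) ∈ 𝔤.Lc p j {(𝔤.y k).1} := by
  refine ⟨mul_mem (D4.tau_mem_Lc p 𝔤 j _ k) (Subalgebra.smul_mem _ (D4.th2_mem_Lc p 𝔤 j
    ⟨_, Finset.mem_singleton_self _, ?_⟩ ⟨_, Finset.mem_singleton_self _, ?_⟩) _), D4.tau_mem_Lc p 𝔤 j _ k⟩
  · simp [he0, supd_self]
  · generalize 𝔤.y k = e
    obtain ⟨⟨a, b⟩, i⟩ := e
    fin_cases i <;> simp [he1, supd, uv]

/-- induction on a finset `s ⊆ range m` with `Sp.Alg.fac` (`sp_alg`), `Y = {y i}`, `Z = s.image (y ·).1`; `GeoOK.sep` -/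
theorem mu_prod {p : Par} (hp : p.OK) {K : ℕ} (hK : 20 ≤ K) {Γs : ℝ} {𝔤 : Geom} {j : ℕ} (hG : GeoOK p K Γs 𝔤 j)
    (hj : (j : ℕ∞) < 𝔤.jN) {F : ℕ → Al} (hF : ∀ i < 𝔤.m, F i ∈ 𝔤.Lc p j {(𝔤.y i).1}) :
    (𝔤.sp p j).mu (∏ i ∈ Finset.range 𝔤.m, F i) = ∏ i ∈ Finset.range 𝔤.m, (𝔤.sp p j).mu (F i) := by
  have hA := sp_alg p hp.1 hp.2.1 hp.2.2.1 𝔤 j
  have hl := D4.l_ge hp (j + 1)
  have key : ∀ s : Finset ℕ, s ⊆ Finset.range 𝔤.m → (𝔤.sp p j).mu (∏ i ∈ s, F i) = ∏ i ∈ s, (𝔤.sp p j).mu (F i) := by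
    intro s
    induction s using Finset.induction_on with
    | empty => exact fun _ => hA.mu_one
    | insert i s hi ih =>
      intro hs
      rw [Finset.insert_subset_iff] at hs
      rw [Finset.prod_insert hi, Finset.prod_insert hi, ← ih hs.2]
      refine hA.fac (Y := {(𝔤.y i).1}) (Z := s.image fun k => (𝔤.y k).1) (fun y hy z hz => ?_)
        (hF i (Finset.mem_range.1 hs.1)) (prod_mem fun k hk => hA.mono (Finset.singleton_subset_iff.2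
          (Finset.mem_image_of_mem _ hk)) (hF k (Finset.mem_range.1 (hs.2 hk))))
      obtain ⟨k, hk, rfl⟩ := Finset.mem_image.1 hz
      rw [Finset.mem_singleton.1 hy, geoZ_d]
      have h1 := (hG.sep hj).2.2 i (Finset.mem_range.1 hs.1) k (Finset.mem_range.1 (hs.2 hk)) fun e => hi (e ▸ hk)
      have h2 := Nat.mul_le_mul_right (p.l (j + 1)) hK
      change p.l (j + 1) < _
      omega
  exact key _ subset_rfl

end Crest.Agent.R165.D6
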